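import Vale.Agent.P159.T1.H729.Unf
import Vale.Agent.P159.T1.H42.Rho

/-!
Tightness for cut regions.
-/

set_option linter.all false
set_option autoImplicit false

open MeasureTheory Filter Topology
open scoped BigOperators

namespace Vale.Agent.P159.T1.H729

open Vale.Agent.P159 Vale.Agent.P159.UJ Vale.Agent.P159.H950 Vale.Agent.P159.R2.H130
open Vale.Agent.P159.T1.H931 (zI chiI zI_pos zI_eq eI eI_cont eI_refl eI_congr)

/-- the profile of the rotation -/
noncomputable def prof (r : Refl) (m : ℝ) (v : ℤ × ℤ) : ℝ :=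
  Real.pi / 2 * max 0 (min 1 (((r.lam v : ℝ) + m) / (2 * m)))

theorem prof_mem (r : Refl) (m : ℝ) (v : ℤ × ℤ) : 0 ≤ prof r m v ∧ prof r m v ≤ Real.pi / 2 := by
  unfold prof
  have hp := Real.pi_pos
  have h1 : 0 ≤ max 0 (min 1 (((r.lam v : ℝ) + m) / (2 * m))) := le_max_left _ _
  have h2 : max 0 (min 1 (((r.lam v : ℝ) + m) / (2 * m))) ≤ 1 :=
    max_le zero_le_one (min_le_left _ _)
  constructor
  · positivity
  · nlinarith

theorem prof_bot {r : Refl} {m : ℝ} (hm : 0 < m) {v : ℤ × ℤ} (h : (r.lam v : ℝ) ≤ -m) :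
    prof r m v = 0 := by
  unfold prof
  have h1 : ((r.lam v : ℝ) + m) / (2 * m) ≤ 0 := div_nonpos_of_nonpos_of_nonneg (by linarith)
    (by linarith)
  rw [max_eq_left ((min_le_right _ _).trans h1), mul_zero]

theorem prof_top {r : Refl} {m : ℝ} (hm : 0 < m) {v : ℤ × ℤ} (h : m ≤ (r.lam v : ℝ)) :
    prof r m v = Real.pi / 2 := by
  unfold prof
  have h1 : 1 ≤ ((r.lam v : ℝ) + m) / (2 * m) := by
    rw [le_div_iff₀ (by linarith)]; linarith
  rw [min_eq_left h1, max_eq_right zero_le_one, mul_one]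

theorem prof_step {r : Refl} (h : Good r) {m : ℝ} (hm : 0 < m) (c : ℤ × ℤ) (t : HT) :
    (prof r m (hu c t) - prof r m (hv c t)) ^ 2 ≤ Real.pi ^ 2 / (16 * m ^ 2) := by
  have h1 := h.stp c t
  have h2 : |(r.lam (hu c t) : ℝ) - r.lam (hv c t)| ≤ 1 := by exact_mod_cast h1
  obtain ⟨x, hx⟩ : ∃ x, x = ((r.lam (hu c t) : ℝ) + m) / (2 * m) := ⟨_, rfl⟩
  obtain ⟨y, hy⟩ : ∃ y, y = ((r.lam (hv c t) : ℝ) + m) / (2 * m) := ⟨_, rfl⟩
  have h3 : |x - y| ≤ 1 / (2 * m) := by
    have e : x - y = ((r.lam (hu c t) : ℝ) - r.lam (hv c t)) / (2 * m) := by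
      rw [hx, hy]; ring
    rw [e, abs_div, abs_of_pos (by linarith : (0 : ℝ) < 2 * m)]
    exact div_le_div_of_nonneg_right h2 (by linarith)
  have h4 : |max 0 (min 1 x) - max 0 (min 1 y)| ≤ |x - y| := by
    have a1 : |max 0 (min 1 x) - max 0 (min 1 y)| ≤ |min 1 x - min 1 y| := by
      have := abs_max_sub_max_le_abs (min 1 x) (min 1 y) 0
      rwa [max_comm (min 1 x), max_comm (min 1 y)] at this
    have a2 : |min 1 x - min 1 y| ≤ |x - y| := by
      have := abs_min_sub_min_le_max 1 x 1 y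
      rw [sub_self, abs_zero, max_eq_right (abs_nonneg _)] at this
      exact this
    exact a1.trans a2
  have e : prof r m (hu c t) - prof r m (hv c t) =
      Real.pi / 2 * (max 0 (min 1 x) - max 0 (min 1 y)) := by
    unfold prof
    rw [hx, hy]; ring
  rw [e, mul_pow, ← sq_abs (max 0 (min 1 x) - max 0 (min 1 y))]
  have h5 : |max 0 (min 1 x) - max 0 (min 1 y)| ^ 2 ≤ (1 / (2 * m)) ^ 2 :=
    pow_le_pow_left₀ (abs_nonneg _) (h4.trans h3) 2
  refine (mul_le_mul_of_nonneg_left h5 (by positivity)).trans (le_of_eq ?_)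
  field_simp
  ring

/-- the vertices of a region as a finite set -/
noncomputable def vs (R : Finset (ℤ × ℤ)) : Finset (ℤ × ℤ) :=
  R.biUnion fun c => Finset.univ.biUnion fun t : HT => {hu c t, hv c t}

theorem mem_vs {R : Finset (ℤ × ℤ)} {v : ℤ × ℤ} : v ∈ vs R ↔ v ∈ H42.st R := by
  unfold vs H42.st
  simp only [Finset.mem_biUnion, Finset.mem_univ, true_and, Finset.mem_insert,
    Finset.mem_singleton, Set.mem_setOf_eq]

theorem vs_AV {R : Finset (ℤ × ℤ)} {p : ℤ × ℤ → Prop} (h : ∀ c ∈ R, AV p c) {v : ℤ × ℤ}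
    (hv' : v ∈ H42.st R) : p v := by
  obtain ⟨c, hc, t, ht⟩ := hv'
  rcases ht with rfl | rfl
  · exact (h c hc t).1
  · exact (h c hc t).2

theorem not_AV_le {r : Refl} {c : ℤ × ℤ} {m : ℤ} (h : ¬ AV (fun v => r.lam v ≤ m) c) :
    ∃ t, m + 1 ≤ r.lam (hu c t) ∨ m + 1 ≤ r.lam (hv c t) := by
  unfold AV at h
  push Not at h
  obtain ⟨t, ht⟩ := h
  by_cases h1 : r.lam (hu c t) ≤ m
  · have := ht h1
    exact ⟨t, Or.inr (by omega)⟩
  · exact ⟨t, Or.inl (by omega)⟩

/-- tightness for cut regions -/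
theorem rho_cut {b : ℝ} (hb : 0 ≤ b) : RhoCut b := by
  classical
  intro r h w hw E I hE hI
  have hw2 : (2 : ℝ) ≤ (w : ℝ) - 2 := by
    have : (4 : ℝ) ≤ w := by exact_mod_cast hw
    linarith
  obtain ⟨m, hm⟩ : ∃ m : ℝ, m = (w : ℝ) - 1 := ⟨_, rfl⟩
  have hm0 : 0 < m := by rw [hm]; linarith
  set R0 := cut2 r w E with hR0
  set El := E \ cut (flip r) w E with hEl
  set Er := E \ cut r w E with hEr
  have mEl : ∀ c, c ∈ El ↔ c ∈ E ∧ ¬ AV (fun v => -(w : ℤ) ≤ r.lam v) c := by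
    intro c
    rw [hEl, Finset.mem_sdiff, mem_cut]
    have e : AV (fun v => (flip r).lam v ≤ w) c ↔ AV (fun v => -(w : ℤ) ≤ r.lam v) c := by
      constructor
      · intro h1
        exact h1.mono fun v hv => by
          have h2 : - r.lam v ≤ w := hv
          omega
      · intro h1
        exact h1.mono fun v hv => by
          show - r.lam v ≤ w
          omega
    rw [e]; tauto
  have mEr : ∀ c, c ∈ Er ↔ c ∈ E ∧ ¬ AV (fun v => r.lam v ≤ w) c := by
    intro c
    rw [hEr, Finset.mem_sdiff, mem_cut]; tauto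
  have mR0 : ∀ c, c ∈ R0 ↔ c ∈ E ∧ AV (fun v => -(w : ℤ) ≤ r.lam v) c ∧
      AV (fun v => r.lam v ≤ w) c := by
    intro c
    rw [hR0, mem_cut2]
    refine and_congr_right fun _ => ⟨fun h1 => ⟨h1.mono fun v hv => hv.1, h1.mono fun v hv => hv.2⟩,
      fun h1 => h1.1.and h1.2⟩
  -- far cells have far vertices
  have aEl : ∀ c ∈ El, AV (fun v => r.lam v ≤ -(w : ℤ) + 1) c := by
    intro c hc
    have h1 := ((mEl c).1 hc).2
    have h2 : ∃ t, r.lam (hu c t) ≤ -(w : ℤ) - 1 ∨ r.lam (hv c t) ≤ -(w : ℤ) - 1 := by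
      unfold AV at h1
      push Not at h1
      obtain ⟨t, ht⟩ := h1
      by_cases h3 : -(w : ℤ) ≤ r.lam (hu c t)
      · have := ht h3
        exact ⟨t, Or.inr (by omega)⟩
      · exact ⟨t, Or.inl (by omega)⟩
    exact (h.spread h2).mono fun v hv => by omega
  have aEr : ∀ c ∈ Er, AV (fun v => (w : ℤ) - 1 ≤ r.lam v) c := by
    intro c hc
    exact (h.spread' (not_AV_le ((mEr c).1 hc).2)).mono fun v hv => by omega
  have h01 : Disjoint R0 El := by
    rw [Finset.disjoint_left]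
    intro c h1 h2
    exact ((mEl c).1 h2).2 ((mR0 c).1 h1).2.1
  have h02 : Disjoint R0 Er := by
    rw [Finset.disjoint_left]
    intro c h1 h2
    exact ((mEr c).1 h2).2 ((mR0 c).1 h1).2.2
  have h12 : Disjoint El Er := by
    rw [Finset.disjoint_left]
    intro c h1 h2
    have a1 := (aEl c h1 (false, false)).1
    have a2 := (aEr c h2 (false, false)).1
    omega
  have hL : Disjoint (vs El) (vs Er) := by
    rw [Finset.disjoint_left]
    intro v h1 h2
    have a1 := vs_AV aEl (mem_vs.1 h1)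
    have a2 := vs_AV aEr (mem_vs.1 h2)
    omega
  have key := H42.rho_le hb h01 h02 h12 I (L := vs El) (L' := vs Er) (La := ∅) (La' := ∅)
    (Finset.empty_subset _) (Finset.empty_subset _) hL
    (fun v _ h1 _ => mem_vs.2 h1) (fun v _ h1 _ => mem_vs.2 h1)
    (prof r m) (prof_mem r m)
    (fun v hv => prof_bot hm0 (by
      have a1 := vs_AV aEl (mem_vs.1 hv)
      have a2 : (r.lam v : ℝ) ≤ -(w : ℝ) + 1 := by exact_mod_cast a1
      rw [hm]; linarith))
    (fun v hv => prof_top hm0 (by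
      have a1 := vs_AV aEr (mem_vs.1 hv)
      have a2 : (w : ℝ) - 1 ≤ (r.lam v : ℝ) := by exact_mod_cast a1
      rw [hm]; linarith))
  have eU : R0 ∪ El ∪ Er = E := by
    ext c
    rw [Finset.mem_union, Finset.mem_union, mR0, mEl, mEr]
    tauto
  have eL : R0 ∪ El = cut r w E := by
    ext c
    rw [Finset.mem_union, mR0, mEl, mem_cut]
    constructor
    · rintro (h1 | h1)
      · exact ⟨h1.1, h1.2.2⟩
      · exact ⟨h1.1, (aEl c ((mEl c).2 h1)).mono fun v hv => by omega⟩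
    · rintro ⟨h1, h2⟩
      by_cases h3 : AV (fun v => -(w : ℤ) ≤ r.lam v) c
      · exact Or.inl ⟨h1, h3, h2⟩
      · exact Or.inr ⟨h1, h3⟩
  have eR : R0 ∪ Er = (cut r w E).image r.cm := by
    ext c
    rw [Finset.mem_union, mR0, mEr, Finset.mem_image]
    have e1 : (∃ a ∈ cut r w E, r.cm a = c) ↔ r.cm c ∈ cut r w E := by
      constructor
      · rintro ⟨a, h1, rfl⟩
        rwa [r.cm_cm]
      · intro h1
        exact ⟨_, h1, r.cm_cm c⟩
    have e2 : AV (fun v => r.lam (r.s v) ≤ w) c ↔ AV (fun v => -(w : ℤ) ≤ r.lam v) c := by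
      constructor
      · intro h1
        exact h1.mono fun v hv => by rw [h.neg] at hv; omega
      · intro h1
        exact h1.mono fun v hv => by rw [h.neg]; omega
    rw [e1, mem_cut, hE c, AV_cm, e2]
    constructor
    · rintro (h1 | h1)
      · exact ⟨h1.1, h1.2.1⟩
      · exact ⟨h1.1, (aEr c ((mEr c).2 h1)).mono fun v hv => by omega⟩
    · rintro ⟨h1, h2⟩
      by_cases h3 : AV (fun v => r.lam v ≤ w) c
      · exact Or.inl ⟨h1, h2, h3⟩
      · exact Or.inr ⟨h1, h3⟩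
  have eS : ∀ I : Set (ℤ × ℤ), I \ ((∅ : Finset (ℤ × ℤ)) : Set (ℤ × ℤ)) = I := fun I => by simp
  rw [Finset.union_empty, eU, eL, eR, eS] at key
  have ez : ∀ R : Finset (ℤ × ℤ), H42.ZE b R I = zI b R I 0 := fun R => (H42.ZE_eq b R I).symm
  rw [ez, ez, ez, ez] at key
  -- the mirror image
  have em : zI b ((cut r w E).image r.cm) I 0 = zI b (cut r w E) I 0 := by
    rw [zI_eq, zI_eq]
    have h1 := integral_relabel r.s (s_inj r) muInf muInf
      (Real.continuous_exp.comp (eI_cont b (cut r w E) I 0))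
    simp only [Function.comp_apply] at h1
    rw [← h1]
    congr 1
    ext x
    rw [eI_refl r b (I' := I) 0 x (cut r w E) (fun c _ t => ⟨(hI _).symm, (hI _).symm⟩)]
    have e0 : r.act (0 : Fld) = 0 := by
      funext c d
      unfold Refl.act
      simp
    rw [e0]
  rw [em] at key
  refine key.trans ?_
  rw [← pow_two]
  refine mul_le_mul_of_nonneg_right (Real.exp_le_exp.2 ?_) (sq_nonneg _)
  -- the energy
  have h1 : ∑ e : KR R0, b / 2 * H42.dT R0 (prof r m) e ^ 2 ≤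
      ∑ e : KR R0, b / 2 * (Real.pi ^ 2 / (16 * m ^ 2)) :=
    Finset.sum_le_sum fun e _ => mul_le_mul_of_nonneg_left (prof_step h hm0 e.1 e.2)
      (by positivity)
  refine h1.trans ?_
  rw [Finset.sum_const, nsmul_eq_mul, Finset.card_univ, Fintype.card_prod, Fintype.card_coe]
  have h2 : (Fintype.card HT : ℕ) = 4 := rfl
  rw [h2]
  have h3 : (R0.card : ℝ) ≤ E.card := by
    exact_mod_cast Finset.card_le_card ((cut_sub _ _ _).trans (cut_sub _ _ _))
  have h4 : Real.pi ^ 2 / (8 * m ^ 2) ≤ Real.pi ^ 2 / (8 * ((w : ℝ) - 2) ^ 2) := by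
    have h5 : ((w : ℝ) - 2) ^ 2 ≤ m ^ 2 := pow_le_pow_left₀ (by linarith) (by rw [hm]; linarith) 2
    gcongr
  push_cast
  have h6 : (R0.card : ℝ) * 4 * (b / 2 * (Real.pi ^ 2 / (16 * m ^ 2))) =
      b * R0.card * (Real.pi ^ 2 / (8 * m ^ 2)) := by
    field_simp
    ring
  rw [h6]
  gcongr

end Vale.Agent.P159.T1.H729
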