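import Vale.Agent.P159.T1.H729.Wedge
import Vale.Agent.P159.T1.H729.RhoC

/-!
Gaussian bounds in every domain which contains a lattice quarter plane, straight or diagonal,
without hypotheses; the quadrant box with two free and two wired sides.
-/

set_option linter.all false
set_option autoImplicit false

open MeasureTheory Filter Topology
open scoped BigOperators

namespace Vale.Agent.P159.T1.H729

open Vale.Agent.P159 Vale.Agent.P159.UJ Vale.Agent.P159.H950 Vale.Agent.P159.R2.H130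
open Vale.Agent.P159.T1.H931 (zI chiI qI)
open Vale.Agent.P159.T1.H532 (GLB)

/-- **V3 for domains which contain a lattice quarter plane.** The lines of the two perpendicular
families `σ`, `perp σ` (orientations `fl`, `fl'`) are at `a N`, `a' N`; the quarter plane is
bounded by the parallel lines at distance `w N ≥ δ N`; every free vertex of the domain has all
its cells of the quarter plane in the domain; the field is carried by the cells of the domain on
the far side of the lines `a N`, `a' N`. -/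
theorem v3_wedge {b : ℝ} (hb : 0 < b) {F : MF} (hF : DF F) (σ : Dir)
    (fl fl' : Bool) {a a' : ℕ → ℤ} {w : ℕ → ℕ} {K : ℕ}
    (ha : ∀ N, |a N| ≤ ((K * N : ℕ) : ℤ)) (ha' : ∀ N, |a' N| ≤ ((K * N : ℕ) : ℤ))
    {δ : ℝ} (hδ : 0 < δ) (hw : ∀ᶠ N : ℕ in atTop, δ * N ≤ w N)
    {R : ℕ → Finset (ℤ × ℤ)} {I : ℕ → Set (ℤ × ℤ)} (hR : ∀ᶠ N in atTop, R N ⊆ bx (K * N))
    (hI : ∀ᶠ N in atTop, ∀ c, AV (fun v => (rf σ fl (a N)).lam v ≤ w N) c →
      AV (fun v => (rf (perp σ) fl' (a' N)).lam v ≤ w N) c → c ∉ R N →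
      AV (fun v => v ∈ St (R N) → v ∉ I N) c)
    (hf : ∀ᶠ N in atTop, ∀ c d, smp F N c d ≠ 0 → c ∈ R N ∧
      (∀ t, (rf σ fl (a N)).left c t) ∧ ∀ t, (rf (perp σ) fl' (a' N)).left c t) :
    GLB b (helicity b) R I (smp F) :=
  glb_wedge hb (rho_cut hb.le) hF σ fl fl' ha ha' hδ hw hR hI hf

theorem left_V (a : ℤ) (c : ℤ × ℤ) (h : a ≤ c.1) (t : HT) : (rf Dir.V true a).left c t := by
  show ¬ (c.1 < a)
  omega

theorem left_H (a : ℤ) (c : ℤ × ℤ) (h : a ≤ c.2) (t : HT) : (rf Dir.H true a).left c t := by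
  show ¬ (c.2 < a)
  omega

/-- V3 for domains which contain the first quadrant -/
theorem v3_first {b : ℝ} (hb : 0 < b) {F : MF} (hF : DF F) {K : ℕ} {δ : ℝ} (hδ : 0 < δ)
    (hs : ∀ x y d, F x y d ≠ 0 → δ ≤ x ∧ δ ≤ y)
    {R : ℕ → Finset (ℤ × ℤ)} {I : ℕ → Set (ℤ × ℤ)} (hR : ∀ᶠ N in atTop, R N ⊆ bx (K * N))
    (hI : ∀ᶠ N in atTop, ∀ c : ℤ × ℤ, 0 ≤ c.1 → 0 ≤ c.2 → c ∉ R N →
      AV (fun v => v ∈ St (R N) → v ∉ I N) c)
    (hf : ∀ᶠ N in atTop, ∀ c d, smp F N c d ≠ 0 → c ∈ R N) :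
    GLB b (helicity b) R I (smp F) := by
  obtain ⟨δ', hδ', hδ1, hδ2⟩ : ∃ δ' : ℝ, 0 < δ' ∧ δ' ≤ δ ∧ δ' ≤ 1 :=
    ⟨min δ 1, by positivity, min_le_left _ _, min_le_right _ _⟩
  set w : ℕ → ℕ := fun N => ⌊δ' * N⌋₊ with hw
  have hwle : ∀ N : ℕ, (w N : ℝ) ≤ δ' * N := fun N => Nat.floor_le (by positivity)
  have hwN : ∀ N : ℕ, w N ≤ N := by
    intro N
    have h1 := hwle N
    have h2 : δ' * (N : ℝ) ≤ 1 * N := mul_le_mul_of_nonneg_right hδ2 (Nat.cast_nonneg N)
    have : (w N : ℝ) ≤ N := by linarith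
    exact_mod_cast this
  -- enlarge `K`
  have hR' : ∀ᶠ N in atTop, R N ⊆ bx ((K + 1) * N) := by
    filter_upwards [hR] with N h1
    exact h1.trans (bx_mono (Nat.mul_le_mul_right N (Nat.le_succ K)))
  have haw : ∀ N : ℕ, |((w N : ℕ) : ℤ)| ≤ (((K + 1) * N : ℕ) : ℤ) := by
    intro N
    rw [abs_of_nonneg (Int.natCast_nonneg _)]
    have := hwN N
    have h2 : N ≤ (K + 1) * N := Nat.le_mul_of_pos_left N (Nat.succ_pos K)
    exact_mod_cast this.trans h2
  have hwlow : ∀ᶠ N : ℕ in atTop, δ' / 2 * N ≤ w N := by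
    have h1 : Tendsto (fun N : ℕ => δ' / 2 * (N : ℝ)) atTop atTop :=
      tendsto_natCast_atTop_atTop.const_mul_atTop (by positivity)
    filter_upwards [h1.eventually (eventually_ge_atTop 1)] with N h2
    have h3 : δ' * N < (w N : ℝ) + 1 := Nat.lt_floor_add_one _
    linarith
  refine v3_wedge hb hF Dir.V true true (a := fun N => (w N : ℤ)) (a' := fun N => (w N : ℤ))
    (w := w) (K := K + 1) haw haw (by positivity : 0 < δ' / 2) hwlow hR' ?_ ?_
  · filter_upwards [hI] with N h1 c h2 h3 h4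
    have e2 : 0 ≤ c.1 := by
      have := (AV_iff.1 h2).1
      rw [rf_lam] at this
      simp only [eps, if_true, Dir.lamZ] at this
      omega
    have e3 : 0 ≤ c.2 := by
      have := (AV_iff.1 h3).1
      rw [rf_lam] at this
      simp only [eps, if_true, perp, Dir.lamZ] at this
      omega
    exact h1 c e2 e3 h4
  · filter_upwards [hf, eventually_ge_atTop 1] with N h1 hN c d h2
    have hN0 : (0 : ℝ) < N := by exact_mod_cast hN
    have h3 := hs _ _ d h2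
    refine ⟨h1 c d h2, left_V _ _ ?_, left_H _ _ ?_⟩
    · have h4 := h3.1
      rw [le_div_iff₀ hN0] at h4
      have h5 := hwle N
      have h6 : δ' * (N : ℝ) ≤ δ * N := mul_le_mul_of_nonneg_right hδ1 hN0.le
      have h7 : ((w N : ℤ) : ℝ) < (c.1 : ℝ) + 1 := by push_cast; linarith
      have h8 : (w N : ℤ) < c.1 + 1 := by exact_mod_cast h7
      show (w N : ℤ) ≤ c.1
      omega
    · have h4 := h3.2
      rw [le_div_iff₀ hN0] at h4
      have h5 := hwle N
      have h6 : δ' * (N : ℝ) ≤ δ * N := mul_le_mul_of_nonneg_right hδ1 hN0.le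
      have h7 : ((w N : ℤ) : ℝ) < (c.2 : ℝ) + 1 := by push_cast; linarith
      have h8 : (w N : ℤ) < c.2 + 1 := by exact_mod_cast h7
      show (w N : ℤ) ≤ c.2
      omega

/-- **V3 for the quadrant box** `[0, K]²`, left and lower sides free, right and upper sides
wired -/
theorem v3_quad {b : ℝ} (hb : 0 < b) {F : MF} (hF : DF F) {K : ℕ} {δ : ℝ} (hδ : 0 < δ)
    (hs : ∀ x y d, F x y d ≠ 0 → δ ≤ x ∧ δ ≤ y ∧ x ≤ K ∧ y ≤ K) :
    GLB b (helicity b)
      (fun N => Finset.Ico (0 : ℤ) ((K * N : ℕ) : ℤ) ×ˢ Finset.Ico (0 : ℤ) ((K * N : ℕ) : ℤ))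
      (fun N => {v | v.1 < ((K * N : ℕ) : ℤ) ∧ v.2 < ((K * N : ℕ) : ℤ)}) (smp F) := by
  refine v3_first hb hF (K := K) hδ (fun x y d h => ⟨(hs x y d h).1, (hs x y d h).2.1⟩) ?_ ?_ ?_
  · refine Eventually.of_forall fun N c hc => ?_
    rw [Finset.mem_product, Finset.mem_Ico, Finset.mem_Ico] at hc
    rw [mem_bx]
    omega
  · refine Eventually.of_forall fun N c h1 h2 h3 => ?_
    rw [Finset.mem_product, Finset.mem_Ico, Finset.mem_Ico] at h3
    rw [AV_iff]
    simp only [Set.mem_setOf_eq]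
    have h4 : ¬ (c.1 < ((K * N : ℕ) : ℤ) ∧ c.2 < ((K * N : ℕ) : ℤ)) := by
      intro h5
      exact h3 ⟨⟨h1, h5.1⟩, h2, h5.2⟩
    refine ⟨fun _ h5 => h4 h5, fun _ h5 => h4 ⟨by omega, h5.2⟩, fun _ h5 => h4 ⟨h5.1, by omega⟩,
      fun _ h5 => h4 ⟨by omega, by omega⟩⟩
  · filter_upwards [eventually_ge_atTop 1] with N hN c d h
    have hN0 : (0 : ℝ) < N := by exact_mod_cast hN
    obtain ⟨h1, h2, h3, h4⟩ := hs _ _ d h
    rw [le_div_iff₀ hN0] at h1 h2
    rw [div_le_iff₀ hN0] at h3 h4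
    have hd : 0 < δ * N := by positivity
    rw [Finset.mem_product, Finset.mem_Ico, Finset.mem_Ico]
    have a1 : (-1 : ℝ) < c.1 := by linarith
    have a2 : (-1 : ℝ) < c.2 := by linarith
    have a3 : (c.1 : ℝ) < ((K * N : ℕ) : ℤ) := by push_cast; linarith
    have a4 : (c.2 : ℝ) < ((K * N : ℕ) : ℤ) := by push_cast; linarith
    have b1 : (-1 : ℤ) < c.1 := by exact_mod_cast a1
    have b2 : (-1 : ℤ) < c.2 := by exact_mod_cast a2
    have b3 : c.1 < ((K * N : ℕ) : ℤ) := by exact_mod_cast a3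
    have b4 : c.2 < ((K * N : ℕ) : ℤ) := by exact_mod_cast a4
    exact ⟨⟨by omega, b3⟩, by omega, b4⟩

end Vale.Agent.P159.T1.H729
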