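import Vale.Agent.P159.T1.H729.Unf
import Vale.Agent.P159.T1.H931.GlbN

/-!
Cauchy-Schwarz for cut regions.
-/

set_option linter.all false
set_option autoImplicit false

open MeasureTheory Filter Topology
open scoped BigOperators

namespace Vale.Agent.P159.T1.H729

open Vale.Agent.P159 Vale.Agent.P159.UJ Vale.Agent.P159.H950 Vale.Agent.P159.R2.H130
open Vale.Agent.P159.T1.H931 (zI chiI zI_pos zI_eq eI eI_cont eI_refl eI_congr Dbl csH)

theorem act_act (r : Refl) (y : Fld) : r.act (r.act y) = y := by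
  funext c d
  unfold Refl.act
  rw [r.cm_cm, r.dm_dm, r.sg_dm, ← mul_assoc]
  rcases r.sg_or d with h | h <;> rw [h] <;> ring

theorem act_add (r : Refl) (y z : Fld) : r.act (y + z) = r.act y + r.act z := by
  funext c d
  unfold Refl.act
  simp only [Pi.add_apply]
  ring

theorem dbl_cut {r : Refl} (h : Good r) {w : ℕ} (hw : 2 ≤ w) {E : Finset (ℤ × ℤ)}
    {I : Set (ℤ × ℤ)} (hE : SC r E) (hI : SI r I) :
    Dbl r (cut r w E) E (cut2 r w E) I I I where
  cl c t hc := (mem_cut_left h hw ⟨t, hc⟩).symm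
  cls := hE
  cr c t hc := (mem_cut_right h hw ⟨t, hc⟩).symm
  crs := hE.cut2 h w
  il v _ := Iff.rfl
  ils := hI
  ir v _ := Iff.rfl
  irs := hI

/-- Cauchy-Schwarz for cut regions -/
theorem cs_cut (b : ℝ) : CsCut b := by
  intro r h w hw E I hE hI y hy
  refine csH h.neg b (dbl_cut h hw hE hI) (yL := y + r.act y) (yR := 0) ?_ ?_ ?_ ?_
  · intro c _ t hc
    show y c t.1 + r.act y c t.1 = y c t.1
    rw [LF.act_zero hy ⟨t, hc⟩, add_zero]
  · intro c _ d
    rw [act_add, act_act, add_comm]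
  · intro c _ t hc
    show (0 : ℝ) = y c t.1
    rw [hy c ⟨t, hc⟩]
  · intro c _ d
    show r.sg d * (0 : ℝ) = 0
    rw [mul_zero]

end Vale.Agent.P159.T1.H729
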