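import Vale.Agent.P159.T1.H532.GLB
import Vale.Agent.P159.T1.H931.Dom

/-!
Reflections with their sides exchanged, and cutting of symmetric regions parallel to the mirror
line.
-/

set_option linter.all false
set_option autoImplicit false

open MeasureTheory Filter Topology
open scoped BigOperators

namespace Vale.Agent.P159.T1.H729

open Vale.Agent.P159 Vale.Agent.P159.UJ Vale.Agent.P159.H950 Vale.Agent.P159.R2.H130
open Vale.Agent.P159.T1.H532

/-- the reflection with its two sides exchanged -/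
def flip (r : Refl) : Refl where
  s := r.s
  cm := r.cm
  tm := r.tm
  dm := r.dm
  sg := r.sg
  lam v := - r.lam v
  left c t := ¬ r.left c t
  s_s := r.s_s
  cm_cm := r.cm_cm
  tm_tm := r.tm_tm
  tm_dm := r.tm_dm
  dm_dm := r.dm_dm
  sg_or := r.sg_or
  sg_dm := r.sg_dm
  ends := r.ends
  lam_s v h := r.lam_s v (by omega)
  left1 c t h := by have := r.left2 c t h; omega
  left2 c t h := by have := r.left1 c t (not_not.1 h); omega
  left3 c t := by have := r.left3 c t; tauto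

/-- the four reflections have these properties -/
structure Good (r : Refl) : Prop where
  neg : ∀ v, r.lam (r.s v) = - r.lam v
  stp : ∀ c t, |r.lam (hu c t) - r.lam (hv c t)| ≤ 1

theorem Good.flip {r : Refl} (h : Good r) : Good (flip r) where
  neg v := by
    show - r.lam (r.s v) = - - r.lam v
    rw [h.neg]
  stp c t := by
    show |-r.lam (hu c t) - -r.lam (hv c t)| ≤ 1
    have h1 := h.stp c t
    rw [abs_le] at h1 ⊢
    omega

theorem good_V (a : ℤ) : Good (rV a) where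
  neg v := by
    show 2 * a - v.1 - a = -(v.1 - a)
    ring
  stp c t := by
    show |(hu c t).1 - a - ((hv c t).1 - a)| ≤ 1
    rcases t with ⟨_ | _, _ | _⟩ <;> simp [hu, hv]

theorem good_H (a : ℤ) : Good (rH a) where
  neg v := by
    show 2 * a - v.2 - a = -(v.2 - a)
    ring
  stp c t := by
    show |(hu c t).2 - a - ((hv c t).2 - a)| ≤ 1
    rcases t with ⟨_ | _, _ | _⟩ <;> simp [hu, hv]

theorem good_D (a : ℤ) : Good (rD a) where
  neg v := by
    show v.2 + a - (v.1 - a) - a = -(v.1 - v.2 - a)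
    ring
  stp c t := by
    show |(hu c t).1 - (hu c t).2 - a - ((hv c t).1 - (hv c t).2 - a)| ≤ 1
    rw [abs_le]
    rcases t with ⟨_ | _, _ | _⟩ <;> simp [hu, hv] <;> omega

theorem good_A (a : ℤ) : Good (rA a) where
  neg v := by
    show a - v.2 + (a - v.1) - a = -(v.1 + v.2 - a)
    ring
  stp c t := by
    show |(hu c t).1 + (hu c t).2 - a - ((hv c t).1 + (hv c t).2 - a)| ≤ 1
    rw [abs_le]
    rcases t with ⟨_ | _, _ | _⟩ <;> simp [hu, hv] <;> omega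

theorem hu_1 (c : ℤ × ℤ) : hu c (false, false) = (c.1, c.2) := by ext <;> simp [hu]
theorem hv_1 (c : ℤ × ℤ) : hv c (false, false) = (c.1 + 1, c.2) := by ext <;> simp [hv, hu]
theorem hu_2 (c : ℤ × ℤ) : hu c (false, true) = (c.1, c.2 + 1) := by ext <;> simp [hu]
theorem hv_2 (c : ℤ × ℤ) : hv c (false, true) = (c.1 + 1, c.2 + 1) := by ext <;> simp [hv, hu]
theorem hu_3 (c : ℤ × ℤ) : hu c (true, false) = (c.1, c.2) := by ext <;> simp [hu]
theorem hv_3 (c : ℤ × ℤ) : hv c (true, false) = (c.1, c.2 + 1) := by ext <;> simp [hv, hu]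
theorem hu_4 (c : ℤ × ℤ) : hu c (true, true) = (c.1 + 1, c.2) := by ext <;> simp [hu]
theorem hv_4 (c : ℤ × ℤ) : hv c (true, true) = (c.1 + 1, c.2 + 1) := by ext <;> simp [hv, hu]

/-- a property of all vertices of a cell -/
def AV (p : ℤ × ℤ → Prop) (c : ℤ × ℤ) : Prop := ∀ t : HT, p (hu c t) ∧ p (hv c t)

theorem AV_iff {p : ℤ × ℤ → Prop} {c : ℤ × ℤ} : AV p c ↔
    p (c.1, c.2) ∧ p (c.1 + 1, c.2) ∧ p (c.1, c.2 + 1) ∧ p (c.1 + 1, c.2 + 1) := by
  unfold AV
  constructor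
  · intro h
    have h1 := h (false, false)
    have h2 := h (false, true)
    rw [hu_1, hv_1] at h1
    rw [hu_2, hv_2] at h2
    exact ⟨h1.1, h1.2, h2.1, h2.2⟩
  · rintro ⟨h1, h2, h3, h4⟩ t
    rcases t with ⟨_ | _, _ | _⟩
    · rw [hu_1, hv_1]; exact ⟨h1, h2⟩
    · rw [hu_2, hv_2]; exact ⟨h3, h4⟩
    · rw [hu_3, hv_3]; exact ⟨h1, h3⟩
    · rw [hu_4, hv_4]; exact ⟨h2, h4⟩

theorem AV.mono {p q : ℤ × ℤ → Prop} {c : ℤ × ℤ} (h : AV p c) (hpq : ∀ v, p v → q v) : AV q c :=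
  fun t => ⟨hpq _ (h t).1, hpq _ (h t).2⟩

theorem AV.and {p q : ℤ × ℤ → Prop} {c : ℤ × ℤ} (h : AV p c) (h' : AV q c) :
    AV (fun v => p v ∧ q v) c :=
  fun t => ⟨⟨(h t).1, (h' t).1⟩, ⟨(h t).2, (h' t).2⟩⟩

theorem AV_cm (r : Refl) (p : ℤ × ℤ → Prop) (c : ℤ × ℤ) :
    AV p (r.cm c) ↔ AV (fun v => p (r.s v)) c := by
  have key : ∀ (p : ℤ × ℤ → Prop) (c : ℤ × ℤ), AV p (r.cm c) → AV (fun v => p (r.s v)) c := by
    intro p c h t
    have h1 := h (r.tm t)
    rcases r.ends c t with ⟨_, e1, e2⟩ | ⟨_, e1, e2⟩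
    · rw [e1, e2] at h1; exact h1
    · rw [e1, e2] at h1; exact ⟨h1.2, h1.1⟩
  refine ⟨key p c, fun h => ?_⟩
  have h1 := key (fun v => p (r.s v)) (r.cm c) (by rw [r.cm_cm]; exact h)
  exact h1.mono fun v hv => by rwa [r.s_s] at hv

/-- the heights of the vertices of a cell differ by at most two -/
theorem Good.spread {r : Refl} (h : Good r) {c : ℤ × ℤ} {m : ℤ}
    (hm : ∃ t, r.lam (hu c t) ≤ m ∨ r.lam (hv c t) ≤ m) : AV (fun v => r.lam v ≤ m + 2) c := by
  have s1 := h.stp c (false, false)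
  have s2 := h.stp c (false, true)
  have s3 := h.stp c (true, false)
  have s4 := h.stp c (true, true)
  rw [abs_le] at s1 s2 s3 s4
  rw [hu_1, hv_1] at s1
  rw [hu_2, hv_2] at s2
  rw [hu_3, hv_3] at s3
  rw [hu_4, hv_4] at s4
  rw [AV_iff]
  obtain ⟨t, ht⟩ := hm
  rcases t with ⟨_ | _, _ | _⟩
  · rw [hu_1, hv_1] at ht; omega
  · rw [hu_2, hv_2] at ht; omega
  · rw [hu_3, hv_3] at ht; omega
  · rw [hu_4, hv_4] at ht; omega

theorem Good.spread' {r : Refl} (h : Good r) {c : ℤ × ℤ} {m : ℤ}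
    (hm : ∃ t, m ≤ r.lam (hu c t) ∨ m ≤ r.lam (hv c t)) : AV (fun v => m - 2 ≤ r.lam v) c := by
  have s1 := h.stp c (false, false)
  have s2 := h.stp c (false, true)
  have s3 := h.stp c (true, false)
  have s4 := h.stp c (true, true)
  rw [abs_le] at s1 s2 s3 s4
  rw [hu_1, hv_1] at s1
  rw [hu_2, hv_2] at s2
  rw [hu_3, hv_3] at s3
  rw [hu_4, hv_4] at s4
  rw [AV_iff]
  obtain ⟨t, ht⟩ := hm
  rcases t with ⟨_ | _, _ | _⟩
  · rw [hu_1, hv_1] at ht; omega
  · rw [hu_2, hv_2] at ht; omega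
  · rw [hu_3, hv_3] at ht; omega
  · rw [hu_4, hv_4] at ht; omega

/-- the cells of `E` on or below the line `lam = w` -/
noncomputable def cut (r : Refl) (w : ℕ) (E : Finset (ℤ × ℤ)) : Finset (ℤ × ℤ) := by
  classical exact E.filter fun c => AV (fun v => r.lam v ≤ w) c

theorem mem_cut {r : Refl} {w : ℕ} {E : Finset (ℤ × ℤ)} {c : ℤ × ℤ} :
    c ∈ cut r w E ↔ c ∈ E ∧ AV (fun v => r.lam v ≤ w) c := by
  classical
  unfold cut
  rw [Finset.mem_filter]

theorem cut_sub (r : Refl) (w : ℕ) (E : Finset (ℤ × ℤ)) : cut r w E ⊆ E := by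
  intro c hc
  exact (mem_cut.1 hc).1

/-- symmetric sets of cells -/
def SC (r : Refl) (E : Finset (ℤ × ℤ)) : Prop := ∀ c, r.cm c ∈ E ↔ c ∈ E

/-- symmetric sets of vertices -/
def SI (r : Refl) (I : Set (ℤ × ℤ)) : Prop := ∀ v, r.s v ∈ I ↔ v ∈ I

theorem Good.left_le {r : Refl} (h : Good r) {c : ℤ × ℤ} (hc : ∃ t, r.left c t) :
    AV (fun v => r.lam v ≤ 2) c := by
  obtain ⟨t, ht⟩ := hc
  have h1 := r.left1 c t ht
  exact (h.spread (m := 0) ⟨t, Or.inl h1.1⟩).mono fun v hv => by omega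

theorem Good.right_ge {r : Refl} (h : Good r) {c : ℤ × ℤ} (hc : ∃ t, ¬ r.left c t) :
    AV (fun v => -2 ≤ r.lam v) c := by
  obtain ⟨t, ht⟩ := hc
  have h1 := r.left2 c t ht
  exact (h.spread' (m := 0) ⟨t, Or.inl h1.1⟩).mono fun v hv => by omega

theorem left_cm (r : Refl) (c : ℤ × ℤ) : (∀ t, r.left (r.cm c) t) ↔ ∀ t, ¬ r.left c t := by
  constructor
  · intro h t
    exact (r.left3 c t).1 (h (r.tm t))
  · intro h t
    have := (r.left3 c (r.tm t)).2 (h _)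
    rwa [r.tm_tm] at this

/-- the cells of `E` between the lines `lam = -w` and `lam = w` -/
noncomputable def cut2 (r : Refl) (w : ℕ) (E : Finset (ℤ × ℤ)) : Finset (ℤ × ℤ) :=
  cut (flip r) w (cut r w E)

theorem mem_cut2 {r : Refl} {w : ℕ} {E : Finset (ℤ × ℤ)} {c : ℤ × ℤ} :
    c ∈ cut2 r w E ↔ c ∈ E ∧ AV (fun v => -(w : ℤ) ≤ r.lam v ∧ r.lam v ≤ w) c := by
  unfold cut2
  rw [mem_cut, mem_cut]
  constructor
  · rintro ⟨⟨h1, h2⟩, h3⟩
    refine ⟨h1, (h3.and h2).mono fun v hv => ?_⟩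
    have h4 : -r.lam v ≤ w := hv.1
    exact ⟨by omega, hv.2⟩
  · rintro ⟨h1, h2⟩
    refine ⟨⟨h1, h2.mono fun v hv => hv.2⟩, h2.mono fun v hv => ?_⟩
    show -r.lam v ≤ w
    omega

theorem SC.cut2 {r : Refl} (h : Good r) {E : Finset (ℤ × ℤ)} (hE : SC r E) (w : ℕ) :
    SC r (cut2 r w E) := by
  intro c
  rw [mem_cut2, mem_cut2, hE c, AV_cm]
  refine and_congr_right fun _ => ⟨fun h1 => h1.mono fun v hv => ?_, fun h1 => h1.mono fun v hv => ?_⟩
  · simp only [h.neg] at hv; omega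
  · simp only [h.neg]; omega

/-- a cell of a symmetric region with a left half-bond belongs to the cut region -/
theorem mem_cut_left {r : Refl} (h : Good r) {w : ℕ} (hw : 2 ≤ w) {E : Finset (ℤ × ℤ)}
    {c : ℤ × ℤ} (hc : ∃ t, r.left c t) : c ∈ cut r w E ↔ c ∈ E := by
  rw [mem_cut]
  exact ⟨fun h1 => h1.1, fun h1 => ⟨h1, (h.left_le hc).mono fun v hv => by omega⟩⟩

/-- a cell with a right half-bond belongs to the cut region if and only if it belongs to the
collar -/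
theorem mem_cut_right {r : Refl} (h : Good r) {w : ℕ} (hw : 2 ≤ w) {E : Finset (ℤ × ℤ)}
    {c : ℤ × ℤ} (hc : ∃ t, ¬ r.left c t) : c ∈ cut r w E ↔ c ∈ cut2 r w E := by
  rw [mem_cut, mem_cut2]
  refine and_congr_right fun _ => ⟨fun h1 => ((h.right_ge hc).and h1).mono fun v hv => ?_,
    fun h1 => h1.mono fun v hv => hv.2⟩
  exact ⟨by omega, hv.2⟩

end Vale.Agent.P159.T1.H729
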