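import Vale.Agent.P159.T1.H729.CsC
import Vale.Agent.P159.T1.H409.Loc

/-!
Monotonicity of the bounds in the domain, wired blocks, reflected samples.
-/

set_option linter.all false
set_option autoImplicit false

open MeasureTheory Filter Topology
open scoped BigOperators

namespace Vale.Agent.P159.T1.H729

open Vale.Agent.P159 Vale.Agent.P159.UJ Vale.Agent.P159.H950 Vale.Agent.P159.R2.H130
open Vale.Agent.P159.T1.H931 (zI chiI qI zI_pos zI_eq eI eI_cont eI_refl eI_congr)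
open Vale.Agent.P159.T1.H532 (GLB)
open Vale.Agent.P159.T1.H409 (zI_ratio_mono zI_pinned)

/-- the domain `(R', I')` has fewer couplings and fewer pinned spins than `(R, I)` -/
def Les (R' : Finset (ℤ × ℤ)) (I' : Set (ℤ × ℤ)) (R : Finset (ℤ × ℤ)) (I : Set (ℤ × ℤ)) : Prop :=
  R' ⊆ R ∧ ∀ c ∈ R', ∀ t, (hu c t ∈ I → hu c t ∈ I') ∧ (hv c t ∈ I → hv c t ∈ I')

theorem nR_sub {R' R : Finset (ℤ × ℤ)} (h : R' ⊆ R) {y : Fld}
    (hy : ∀ c ∈ R, c ∉ R' → ∀ d, y c d = 0) : nR R' y = nR R y := by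
  unfold nR
  refine Finset.sum_subset h fun c hc hc' => ?_
  unfold sq2
  rw [hy c hc hc', hy c hc hc']
  ring

variable {b Y : ℝ} {R R' : ℕ → Finset (ℤ × ℤ)} {I I' : ℕ → Set (ℤ × ℤ)} {f : SF}

/-- monotonicity of the upper bounds -/
theorem glb_mono (hb : 0 ≤ b) (hL : ∀ᶠ N in atTop, Les (R' N) (I' N) (R N) (I N))
    (hf : ∀ᶠ N in atTop, ∀ c ∈ R N, c ∉ R' N → ∀ d, f N c d = 0) (h : GLB b Y R' I' f) :
    GLB b Y R I f := by
  obtain ⟨C, hC⟩ := h
  refine ⟨C, fun t => ?_⟩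
  filter_upwards [hC t, hL, hf] with N h1 h2 h3
  have h4 := zI_ratio_mono hb h2.1 h2.2 ((t / N) • f N)
  have p1 := zI_pos b (R' N) (I' N) 0
  have p2 := zI_pos b (R N) (I N) 0
  rw [nR_sub h2.1 h3] at h1
  have h5 := h4.trans (mul_le_mul_of_nonneg_right h1 p2.le)
  refine le_of_mul_le_mul_right (h5.trans (le_of_eq ?_)) p1
  ring

/-- monotonicity of the lower bounds -/
theorem lbz_mono (hb : 0 ≤ b) (hL : ∀ᶠ N in atTop, Les (R' N) (I' N) (R N) (I N))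
    (hf : ∀ᶠ N in atTop, ∀ c ∈ R N, c ∉ R' N → ∀ d, f N c d = 0) (h : LBZ b Y R I f) :
    LBZ b Y R' I' f := by
  intro t ε hε
  filter_upwards [h t ε hε, hL, hf] with N h1 h2 h3
  have h4 := zI_ratio_mono hb h2.1 h2.2 ((t / N) • f N)
  have p1 := zI_pos b (R' N) (I' N) 0
  have p2 := zI_pos b (R N) (I N) 0
  rw [← nR_sub h2.1 h3] at h1
  have h5 := (mul_le_mul_of_nonneg_right h1 p1.le).trans h4
  refine le_of_mul_le_mul_right (le_trans (le_of_eq ?_) h5) p2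
  ring

/-- lower bounds in wired blocks -/
theorem lbz_blk {b Y : ℝ} (m : Mod b Y) {f : SF} (hf : VF f) {K : ℕ} {p : ℕ → ℤ × ℤ} {L : ℕ → ℕ}
    (hB : ∀ᶠ N in atTop, blk (p N) (L N) ⊆ bx (K * N)) :
    LBZ b Y (fun N => blk (p N) (L N)) (fun N => intR (blk (p N) (L N))) f := by
  intro t ε hε
  have hδ : 0 < 2 * ε / (t ^ 2 + 1) := by positivity
  filter_upwards [ubq_blk m.hb m.lim hf K hδ, hB, eventually_ge_atTop 1] with N h1 h2 hN
  have hN0 : (0 : ℝ) < N := by exact_mod_cast hN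
  have h3 := h1 (p N) (L N) h2
  have h4 := H532.zI_ge m.hb.le (blk (p N) (L N)) (intR (blk (p N) (L N))) ((t / N) • f N)
  refine le_trans (mul_le_mul_of_nonneg_right (Real.exp_le_exp.2 ?_) (zI_pos b _ _ 0).le) h4
  rw [H532.qI_smul]
  have e0 : qI b (blk (p N) (L N)) (intR (blk (p N) (L N))) (f N) = qR b (blk (p N) (L N)) (f N) :=
    rfl
  rw [e0]
  have e1 : (t / N) ^ 2 * qR b (blk (p N) (L N)) (f N) =
      t ^ 2 * (qR b (blk (p N) (L N)) (f N) / (N : ℝ) ^ 2) := by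
    field_simp
  have e2 : Y * t ^ 2 * nR (blk (p N) (L N)) (f N) / (2 * (N : ℝ) ^ 2) =
      t ^ 2 * (Y * (nR (blk (p N) (L N)) (f N) / (N : ℝ) ^ 2)) / 2 := by
    field_simp
  rw [e1, e2]
  have h5 := mul_le_mul_of_nonneg_left h3 (sq_nonneg t)
  have h6 : t ^ 2 * (2 * ε / (t ^ 2 + 1)) ≤ 2 * ε := by
    rw [mul_div_assoc', div_le_iff₀ (by positivity)]
    nlinarith only [hε, sq_nonneg t]
  rw [mul_add] at h5
  linarith

end Vale.Agent.P159.T1.H729
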