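import Vale.Agent.P159.T1.H729.Cut
import Vale.Agent.P159.T1.H43.Glb
import Vale.Agent.P159.T1.H931.Glb

/-!
Unfolding of a region cut parallel to a mirror line of the full region.
-/

set_option linter.all false
set_option autoImplicit false

open MeasureTheory Filter Topology
open scoped BigOperators

namespace Vale.Agent.P159.T1.H729

open Vale.Agent.P159 Vale.Agent.P159.UJ Vale.Agent.P159.H950 Vale.Agent.P159.R2.H130
open Vale.Agent.P159.T1.H931 (zI chiI zI_pos zI_eq eI eI_cont eI_refl eI_congr)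
open Vale.Agent.P159.T1.H532 (GLB)

/-- Cauchy-Schwarz for cut regions -/
def CsCut (b : ℝ) : Prop := ∀ (r : Refl), Good r → ∀ w : ℕ, 2 ≤ w → ∀ (E : Finset (ℤ × ℤ))
  (I : Set (ℤ × ℤ)), SC r E → SI r I → ∀ y : Fld,
  (∀ c, (∃ t, ¬ r.left c t) → ∀ d, y c d = 0) →
  zI b (cut r w E) I y ^ 2 ≤ zI b E I (y + r.act y) * zI b (cut2 r w E) I 0

/-- tightness for cut regions -/
def RhoCut (b : ℝ) : Prop := ∀ (r : Refl), Good r → ∀ w : ℕ, 4 ≤ w → ∀ (E : Finset (ℤ × ℤ))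
  (I : Set (ℤ × ℤ)), SC r E → SI r I →
  zI b E I 0 * zI b (cut2 r w E) I 0 ≤
    Real.exp (b * E.card * (Real.pi ^ 2 / (8 * ((w : ℝ) - 2) ^ 2))) * zI b (cut r w E) I 0 ^ 2

theorem s_inj (r : Refl) : Function.Injective r.s := by
  intro u v huv
  rw [← r.s_s u, huv, r.s_s]

theorem SC.image {r : Refl} {E : Finset (ℤ × ℤ)} (h : SC r E) : E.image r.cm = E := by
  ext c
  rw [Finset.mem_image]
  constructor
  · rintro ⟨c', h1, rfl⟩
    exact (h c').2 h1
  · intro h1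
    exact ⟨r.cm c, (h c).2 h1, r.cm_cm c⟩

/-- symmetric domains: the partition function of the reflected field -/
theorem zI_act {r : Refl} {E : Finset (ℤ × ℤ)} {I : Set (ℤ × ℤ)} (hE : SC r E) (hI : SI r I)
    (b : ℝ) (y : Fld) : zI b E I (r.act y) = zI b E I y := by
  rw [zI_eq, zI_eq]
  have h1 := integral_relabel r.s (s_inj r) muInf muInf
    (Real.continuous_exp.comp (eI_cont b E I y))
  simp only [Function.comp_apply] at h1
  rw [← h1]
  congr 1
  ext x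
  rw [eI_refl r b (I' := I) y x E (fun c _ t => ⟨(hI _).symm, (hI _).symm⟩), SC.image hE]

theorem nR_act' {r : Refl} {R : Finset (ℤ × ℤ)} (h : SC r R) (y : Fld) :
    nR R (r.act y) = nR R y := by
  unfold nR
  have e1 : ∀ c, sq2 (r.act y) c = sq2 y (r.cm c) := by
    intro c
    unfold sq2 Refl.act
    have hsq : ∀ d, r.sg d * r.sg d = 1 := by
      intro d
      rcases r.sg_or d with h | h <;> rw [h] <;> norm_num
    have e2 : ∀ d, (r.sg d * y (r.cm c) (r.dm d)) ^ 2 = y (r.cm c) (r.dm d) ^ 2 := by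
      intro d
      linear_combination (y (r.cm c) (r.dm d) ^ 2) * hsq d
    rw [e2, e2]
    have h3 := r.dm_dm false
    have h4 := r.dm_dm true
    rcases hd : r.dm false with _ | _
    · rcases hd' : r.dm true with _ | _
      · rw [hd', hd] at h4; exact absurd h4 (by decide)
      · rfl
    · rcases hd' : r.dm true with _ | _
      · ring
      · rw [hd, hd'] at h3; exact absurd h3 (by decide)
  simp only [e1]
  refine Finset.sum_nbij' r.cm r.cm (fun c hc => (h c).2 hc) (fun c hc => (h c).2 hc)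
    (fun c _ => r.cm_cm c) (fun c _ => r.cm_cm c) (fun c _ => rfl)

/-- fields carried by the left side -/
def LF (r : Refl) (y : Fld) : Prop := ∀ c, (∃ t, ¬ r.left c t) → ∀ d, y c d = 0

theorem LF.act_zero {r : Refl} {y : Fld} (h : LF r y) {c : ℤ × ℤ} (hc : ∃ t, r.left c t) (d : Bool) :
    r.act y c d = 0 := by
  unfold Refl.act
  obtain ⟨t, ht⟩ := hc
  rw [h (r.cm c) ⟨r.tm t, fun h1 => (r.left3 c t).1 h1 ht⟩, mul_zero]

theorem LF.sq2_add {r : Refl} {y : Fld} (h : LF r y) (c : ℤ × ℤ) :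
    sq2 (y + r.act y) c = sq2 y c + sq2 (r.act y) c := by
  unfold sq2
  by_cases hc : ∃ t, r.left c t
  · simp only [Pi.add_apply, h.act_zero hc]
    ring
  · have h1 : ∃ t, ¬ r.left c t := ⟨(false, false), fun h2 => hc ⟨_, h2⟩⟩
    simp only [Pi.add_apply, h c h1]
    ring

theorem LF.nR_add {r : Refl} {E : Finset (ℤ × ℤ)} (hE : SC r E) {y : Fld} (h : LF r y) :
    nR E (y + r.act y) = 2 * nR E y := by
  have h1 := nR_act' hE y
  have h2 : nR E (y + r.act y) = nR E y + nR E (r.act y) := by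
    unfold nR
    rw [← Finset.sum_add_distrib]
    exact Finset.sum_congr rfl fun c _ => h.sq2_add c
  rw [h2, h1]; ring

theorem LF.nR_cut {r : Refl} (hr : Good r) {w : ℕ} (hw : 2 ≤ w) {E : Finset (ℤ × ℤ)} {y : Fld}
    (h : LF r y) : nR (cut r w E) y = nR E y := by
  unfold nR
  refine Finset.sum_subset (cut_sub r w E) fun c hc hc' => ?_
  have h1 : ¬ ∃ t, r.left c t := fun h2 => hc' ((mem_cut_left hr hw h2).2 hc)
  have h2 : ∃ t, ¬ r.left c t := ⟨(false, false), fun h3 => h1 ⟨_, h3⟩⟩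
  unfold sq2
  rw [h c h2, h c h2]
  ring

theorem act_smul (r : Refl) (s : ℝ) (y : Fld) : r.act (s • y) = s • r.act y := by
  funext c d
  unfold Refl.act
  simp only [Pi.smul_apply, smul_eq_mul]
  ring

theorem LF.smul {r : Refl} {y : Fld} (h : LF r y) (s : ℝ) : LF r (s • y) := by
  intro c hc d
  rw [Pi.smul_apply, Pi.smul_apply, h c hc, smul_zero]

/-- lower bounds of partition functions at real twists -/
def LBZ (b Y : ℝ) (R : ℕ → Finset (ℤ × ℤ)) (I : ℕ → Set (ℤ × ℤ)) (f : SF) : Prop :=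
  ∀ t ε : ℝ, 0 < ε → ∀ᶠ N : ℕ in atTop,
    Real.exp (-ε - Y * t ^ 2 * nR (R N) (f N) / (2 * (N : ℝ) ^ 2)) * zI b (R N) (I N) 0 ≤
      zI b (R N) (I N) ((t / N) • f N)

variable {b Y : ℝ} {E : ℕ → Finset (ℤ × ℤ)} {I : ℕ → Set (ℤ × ℤ)} {f g : SF}

/-- sums of fields -/
theorem glb_add (hb : 0 ≤ b) (hd : LBZ b Y E I (fun N => f N - g N))
    (hf : GLB b Y E I f) (hg : GLB b Y E I g) : GLB b Y E I (fun N => f N + g N) := by
  obtain ⟨C1, h1⟩ := hf
  obtain ⟨C2, h2⟩ := hg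
  refine ⟨(C1 + C2) / 2 + 1, fun t => ?_⟩
  filter_upwards [h1 (2 * t), h2 (2 * t), hd t 1 one_pos] with N e1 e2 e3
  have tw_add : ∀ y z : Fld, twR (E N) (y + z) = twR (E N) y + twR (E N) z := fun _ _ => rfl
  have tw_sub : ∀ y z : Fld, twR (E N) (y - z) = twR (E N) y - twR (E N) z := fun _ _ => rfl
  have s1 : (2 * t / N) • f N = (t / N) • f N + (t / N) • f N := by
    rw [← add_smul]; congr 1; ring
  have s2 : (2 * t / N) • g N = (t / N) • g N + (t / N) • g N := by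
    rw [← add_smul]; congr 1; ring
  have s3 : (t / N) • (f N - g N) = (t / N) • f N - (t / N) • g N := smul_sub _ _ _
  have s4 : (t / N) • (f N + g N) = (t / N) • f N + (t / N) • g N := smul_add _ _ _
  rw [s1] at e1
  rw [s2] at e2
  rw [s3] at e3
  rw [s4]
  unfold zI at e1 e2 e3 ⊢
  rw [tw_add] at e1 e2 ⊢
  rw [tw_sub] at e3
  have z0 : twR (E N) 0 = 0 := rfl
  rw [z0] at e1 e2 e3 ⊢
  have e4 : -1 - Y * t ^ 2 * nR (E N) (f N - g N) / (2 * (N : ℝ) ^ 2) =
      -(1 + Y * t ^ 2 * nR (E N) (f N - g N) / (2 * (N : ℝ) ^ 2)) := by ring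
  rw [e4] at e3
  refine (H43.add_core muInf (fun _ : KR (E N) => b / 2) (chiI (E N) (I N)) G_div2
    (half_nonneg' hb (E N)) e1 e2 e3).trans (le_of_eq ?_)
  congr 2
  have hp := nR_par (E N) (f N) (g N)
  have e5 : nR (E N) (f N - g N) = 2 * nR (E N) (f N) + 2 * nR (E N) (g N) -
    nR (E N) (f N + g N) := by linarith
  rw [e5]
  ring

/-- the reflected field in a symmetric domain -/
theorem glb_act {r : ℕ → Refl} (hE : ∀ᶠ N in atTop, SC (r N) (E N))
    (hI : ∀ᶠ N in atTop, SI (r N) (I N)) (h : GLB b Y E I f) :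
    GLB b Y E I (fun N => (r N).act (f N)) := by
  obtain ⟨C, hC⟩ := h
  refine ⟨C, fun t => ?_⟩
  filter_upwards [hC t, hE, hI] with N h1 h2 h3
  rw [← act_smul, zI_act h2 h3, nR_act' h2]
  exact h1

/-- the unfolding lemma for cut regions -/
theorem glb_cut (hcs : CsCut b) (hrho : RhoCut b) (hb : 0 ≤ b) (hY : 0 ≤ Y) {r : ℕ → Refl}
    (hr : ∀ N, Good (r N)) {w : ℕ → ℕ} (hw : ∀ᶠ N in atTop, 4 ≤ w N)
    (hE : ∀ᶠ N in atTop, SC (r N) (E N)) (hI : ∀ᶠ N in atTop, SI (r N) (I N)) {C : ℝ}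
    (hC : ∀ᶠ N in atTop, ((E N).card : ℝ) ≤ C * ((w N : ℝ) - 2) ^ 2)
    (hf : ∀ᶠ N in atTop, LF (r N) (f N))
    (h : GLB b Y E I (fun N => f N + (r N).act (f N))) :
    GLB b Y (fun N => cut (r N) (w N) (E N)) I f := by
  refine h.unfold (ρ := Real.exp (b * C * (Real.pi ^ 2 / 8)))
    (fun N => zI b (cut2 (r N) (w N) (E N)) (I N) 0) (fun t => ?_) ?_ ?_ ?_ hY
  · filter_upwards [hw, hE, hI, hf] with N h1 h2 h3 h4
    have h5 := hcs (r N) (hr N) (w N) (by omega) (E N) (I N) h2 h3 ((t / N) • f N) (h4.smul _)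
    rw [act_smul, ← smul_add] at h5
    exact h5
  · filter_upwards [hw, hE, hI, hC] with N h1 h2 h3 h4
    refine (hrho (r N) (hr N) (w N) h1 (E N) (I N) h2 h3).trans ?_
    refine mul_le_mul_of_nonneg_right (Real.exp_le_exp.2 ?_) (sq_nonneg _)
    have hw2 : (0 : ℝ) < (w N : ℝ) - 2 := by
      have : (4 : ℝ) ≤ w N := by exact_mod_cast h1
      linarith
    have h5 : b * (E N).card ≤ b * (C * ((w N : ℝ) - 2) ^ 2) := mul_le_mul_of_nonneg_left h4 hb
    have h6 : 0 ≤ Real.pi ^ 2 / (8 * ((w N : ℝ) - 2) ^ 2) := by positivity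
    refine (mul_le_mul_of_nonneg_right h5 h6).trans (le_of_eq ?_)
    field_simp
  · exact Eventually.of_forall fun N => (zI_pos b _ _ 0).le
  · filter_upwards [hw, hE, hf] with N h1 h2 h3
    rw [h3.nR_cut (hr N) (by omega), h3.nR_add h2]

/-- a bound for a field in a symmetric domain passes to the cut domain -/
theorem glb_cut' (hcs : CsCut b) (hrho : RhoCut b) (hb : 0 ≤ b) (hY : 0 ≤ Y) {r : ℕ → Refl}
    (hr : ∀ N, Good (r N)) {w : ℕ → ℕ} (hw : ∀ᶠ N in atTop, 4 ≤ w N)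
    (hE : ∀ᶠ N in atTop, SC (r N) (E N)) (hI : ∀ᶠ N in atTop, SI (r N) (I N)) {C : ℝ}
    (hC : ∀ᶠ N in atTop, ((E N).card : ℝ) ≤ C * ((w N : ℝ) - 2) ^ 2)
    (hf : ∀ᶠ N in atTop, LF (r N) (f N))
    (hL : LBZ b Y E I (fun N => f N - (r N).act (f N))) (h : GLB b Y E I f) :
    GLB b Y (fun N => cut (r N) (w N) (E N)) I f :=
  glb_cut hcs hrho hb hY hr hw hE hI hC hf (glb_add hb hL h (glb_act hE hI h))

end Vale.Agent.P159.T1.H729
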