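import Vale.Agent.P159.T1.H729.Mon
import Vale.Agent.P159.H950.F2

/-!
Samples of equicontinuous sequences of macroscopic fields, in particular reflected samples.
-/

set_option linter.all false
set_option autoImplicit false

open MeasureTheory Filter Topology
open scoped BigOperators

namespace Vale.Agent.P159.T1.H729

open Vale.Agent.P159 Vale.Agent.P159.UJ Vale.Agent.P159.H950 Vale.Agent.P159.R2.H130

/-- samples of equibounded and equicontinuous fields -/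
theorem vf_eq (G : ℕ → MF)
    (hbd : ∀ K : ℝ, ∃ M : ℝ, ∀ N : ℕ, 1 ≤ N → ∀ (x y : ℝ) d, |x| ≤ K → |y| ≤ K →
      |G N x y d| ≤ M)
    (huc : ∀ K ε : ℝ, 0 < ε → ∃ δ : ℝ, 0 < δ ∧ ∀ N : ℕ, 1 ≤ N → ∀ (x y x' y' : ℝ) d, |x| ≤ K →
      |y| ≤ K → |x'| ≤ K → |y'| ≤ K → |x - x'| ≤ δ → |y - y'| ≤ δ →
      |G N x y d - G N x' y' d| ≤ ε) :
    VF (fun N => smp (G N) N) := by
  constructor
  · intro K
    obtain ⟨M, hM⟩ := hbd K
    refine ⟨M, fun N hN c hc d => ?_⟩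
    have := center_bd hN hc
    exact hM N hN _ _ d this.1 this.2
  · intro K l hl
    have hl0 : (0 : ℝ) < l := by exact_mod_cast hl
    rw [Metric.tendsto_atTop]
    intro ε hε
    obtain ⟨ε', hε', hε'0⟩ : ∃ ε' : ℝ, 2 * ε' ^ 2 * (2 * K) ^ 2 < ε ∧ 0 < ε' := by
      refine ⟨min 1 (ε / (2 * (2 * (K : ℝ)) ^ 2 + 1) / 2), ?_, by positivity⟩
      set t : ℝ := min 1 (ε / (2 * (2 * (K : ℝ)) ^ 2 + 1) / 2) with ht
      have ht0 : 0 < t := by positivity
      have ht1 : t ≤ 1 := min_le_left _ _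
      have ht2 : t ≤ ε / (2 * (2 * (K : ℝ)) ^ 2 + 1) / 2 := min_le_right _ _
      have ht3 : t * (2 * (2 * (K : ℝ)) ^ 2 + 1) ≤ ε / 2 := by
        have : t * (2 * (2 * (K : ℝ)) ^ 2 + 1) ≤
          ε / (2 * (2 * (K : ℝ)) ^ 2 + 1) / 2 * (2 * (2 * (K : ℝ)) ^ 2 + 1) :=
          mul_le_mul_of_nonneg_right ht2 (by positivity)
        refine this.trans (le_of_eq ?_)
        field_simp
      have ht4 : 2 * t ^ 2 * (2 * (K : ℝ)) ^ 2 ≤ 2 * t * (2 * (K : ℝ)) ^ 2 := by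
        have : t ^ 2 ≤ t := by nlinarith only [ht0, ht1]
        gcongr
      nlinarith only [ht4, ht3, ht0, hε]
    obtain ⟨δ1, hδ1, h1⟩ := huc ((K : ℝ) + 1) ε' hε'0
    have hlim : Tendsto (fun N : ℕ => (l : ℝ) * (N : ℝ)⁻¹) atTop (𝓝 0) := by
      simpa using (tendsto_inv_atTop_nhds_zero_nat (𝕜 := ℝ)).const_mul (l : ℝ)
    have hev := ((hlim.eventually (ge_mem_nhds hδ1)).and
      (hlim.eventually (ge_mem_nhds one_pos))).and (eventually_ge_atTop 1)
    obtain ⟨N0, hN0⟩ := eventually_atTop.1 hev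
    refine ⟨N0, fun N hN => ?_⟩
    obtain ⟨⟨e1, e2⟩, e3⟩ := hN0 N hN
    have hNpos : (0 : ℝ) < N := by exact_mod_cast e3
    rw [Real.dist_eq, sub_zero, abs_of_nonneg (div_nonneg (nR_nonneg _ _) (by positivity)),
      div_lt_iff₀ (by positivity)]
    have hb : nR (bx (K * N)) (smp (G N) N - corF l (smp (G N) N)) ≤
        2 * ε' ^ 2 * (bx (K * N)).card := by
      refine nR_bound fun c hc d => ?_
      have hcb := center_bd e3 hc
      obtain ⟨k1, k2, k3, k4⟩ := crn_close hl c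
      obtain ⟨c', hc'⟩ : ∃ c', c' = crn l (tl l c) := ⟨_, rfl⟩
      rw [← hc'] at k1 k2 k3 k4
      have dx : |((c.1 : ℝ) + 1 / 2) / N - ((c'.1 : ℝ) + 1 / 2) / N| ≤ l * (N : ℝ)⁻¹ := by
        rw [← sub_div, abs_div, abs_of_pos hNpos, div_eq_mul_inv]
        refine mul_le_mul_of_nonneg_right ?_ (by positivity)
        have g1 : (c'.1 : ℝ) ≤ c.1 := by exact_mod_cast k1
        have g2 : (c.1 : ℝ) < c'.1 + l := by exact_mod_cast k2
        rw [abs_le]; constructor <;> linarith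
      have dy : |((c.2 : ℝ) + 1 / 2) / N - ((c'.2 : ℝ) + 1 / 2) / N| ≤ l * (N : ℝ)⁻¹ := by
        rw [← sub_div, abs_div, abs_of_pos hNpos, div_eq_mul_inv]
        refine mul_le_mul_of_nonneg_right ?_ (by positivity)
        have g1 : (c'.2 : ℝ) ≤ c.2 := by exact_mod_cast k3
        have g2 : (c.2 : ℝ) < c'.2 + l := by exact_mod_cast k4
        rw [abs_le]; constructor <;> linarith
      have bx1 : |((c'.1 : ℝ) + 1 / 2) / N| ≤ (K : ℝ) + 1 := by
        have := abs_sub_abs_le_abs_sub (((c'.1 : ℝ) + 1 / 2) / N) (((c.1 : ℝ) + 1 / 2) / N)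
        rw [abs_sub_comm] at this
        linarith [hcb.1]
      have by1 : |((c'.2 : ℝ) + 1 / 2) / N| ≤ (K : ℝ) + 1 := by
        have := abs_sub_abs_le_abs_sub (((c'.2 : ℝ) + 1 / 2) / N) (((c.2 : ℝ) + 1 / 2) / N)
        rw [abs_sub_comm] at this
        linarith [hcb.2]
      show |smp (G N) N c d - smp (G N) N (crn l (tl l c)) d| ≤ ε'
      rw [← hc']
      exact h1 N e3 _ _ _ _ d (by linarith [hcb.1]) (by linarith [hcb.2]) bx1 by1 (by linarith)
        (by linarith)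
    refine hb.trans_lt ?_
    rw [card_bx]
    push_cast
    have : (0 : ℝ) < (N : ℝ) ^ 2 := by positivity
    nlinarith only [this, hε', mul_lt_mul_of_pos_right hε' this]

theorem re_lip (σ : Dir) (β x y x' y' δ : ℝ) (hx : |x - x'| ≤ δ) (hy : |y - y'| ≤ δ) :
    |σ.reX β x y - σ.reX β x' y'| ≤ δ ∧ |σ.reY β x y - σ.reY β x' y'| ≤ δ := by
  have hδ : 0 ≤ δ := (abs_nonneg _).trans hx
  rw [abs_le] at hx hy
  cases σ <;> simp only [Dir.reX, Dir.reY] <;> rw [abs_le, abs_le] <;>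
    refine ⟨⟨?_, ?_⟩, ?_, ?_⟩ <;> linarith [hx.1, hx.2, hy.1, hy.2]

/-- reflected samples -/
theorem vf_act {F : MF} (hF : CF F) (σ : Dir) {a : ℕ → ℤ} {Z : ℝ}
    (ha : ∀ N : ℕ, 1 ≤ N → |(a N : ℝ) / N| ≤ Z) :
    VF (fun N => smp (σ.actM ((a N : ℝ) / N) F) N) := by
  refine vf_eq (fun N => σ.actM ((a N : ℝ) / N) F) (fun K => ?_) fun K ε hε => ?_
  · obtain ⟨M, hM⟩ := hF.bd (K + 2 * Z)
    refine ⟨M, fun N hN x y d hx hy => ?_⟩
    have h1 := σ.re_bd hx hy (ha N hN)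
    show |σ.sgM d * F _ _ _| ≤ M
    rw [abs_mul, σ.abs_sgM, one_mul]
    exact hM _ _ _ h1.1 h1.2
  · obtain ⟨δ1, hδ1, h1⟩ := uc (G := fun x y => F x y false) (hF false) (K + 2 * Z) hε
    obtain ⟨δ2, hδ2, h2⟩ := uc (G := fun x y => F x y true) (hF true) (K + 2 * Z) hε
    refine ⟨min δ1 δ2, lt_min hδ1 hδ2, fun N hN x y x' y' d hx hy hx' hy' h3 h4 => ?_⟩
    have r1 := σ.re_bd hx hy (ha N hN)
    have r2 := σ.re_bd hx' hy' (ha N hN)
    have r3 := re_lip σ ((a N : ℝ) / N) x y x' y' _ h3 h4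
    show |σ.sgM d * F (σ.reX _ x y) (σ.reY _ x y) (σ.dmM d) -
      σ.sgM d * F (σ.reX _ x' y') (σ.reY _ x' y') (σ.dmM d)| ≤ ε
    rw [← mul_sub, abs_mul, σ.abs_sgM, one_mul]
    cases σ.dmM d
    · exact h1 _ _ _ _ r1.1 r1.2 r2.1 r2.2 (r3.1.trans (min_le_left _ _))
        (r3.2.trans (min_le_left _ _))
    · exact h2 _ _ _ _ r1.1 r1.2 r2.1 r2.2 (r3.1.trans (min_le_right _ _))
        (r3.2.trans (min_le_right _ _))

theorem VF.of_ev {f g : SF} (hf : VF f) (h : ∀ N : ℕ, 1 ≤ N → g N = f N) : VF g := by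
  constructor
  · intro K
    obtain ⟨M, hM⟩ := hf.bdd K
    exact ⟨M, fun N hN c hc d => by rw [h N hN]; exact hM N hN c hc d⟩
  · intro K l hl
    refine (hf.osc K l hl).congr' ?_
    filter_upwards [eventually_ge_atTop 1] with N hN
    rw [h N hN]

/-- the family of reflections with both orientations -/
def rf (σ : Dir) (fl : Bool) (a : ℤ) : Refl := if fl then flip (σ.refl a) else σ.refl a

theorem rf_act (σ : Dir) (fl : Bool) (a : ℤ) (y : Fld) : (rf σ fl a).act y = (σ.refl a).act y := by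
  unfold rf
  cases fl <;> rfl

theorem rf_cm (σ : Dir) (fl : Bool) (a : ℤ) (c : ℤ × ℤ) : (rf σ fl a).cm c = (σ.refl a).cm c := by
  unfold rf
  cases fl <;> rfl

theorem rf_s (σ : Dir) (fl : Bool) (a : ℤ) (v : ℤ × ℤ) : (rf σ fl a).s v = (σ.refl a).s v := by
  unfold rf
  cases fl <;> rfl

theorem good_rf (σ : Dir) (fl : Bool) (a : ℤ) : Good (rf σ fl a) := by
  have h : Good (σ.refl a) := by
    cases σ
    · exact good_V a
    · exact good_H a
    · exact good_D a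
    · exact good_A a
  unfold rf
  cases fl
  · exact h
  · exact h.flip

/-- sign of the orientation -/
def eps (fl : Bool) : ℤ := if fl then -1 else 1

theorem rf_lam (σ : Dir) (fl : Bool) (a : ℤ) (v : ℤ × ℤ) :
    (rf σ fl a).lam v = eps fl * (σ.lamZ v - a) := by
  have h : (σ.refl a).lam v = σ.lamZ v - a := by
    cases σ <;> rfl
  unfold rf eps
  cases fl
  · simp only [Bool.false_eq_true, if_false, one_mul]
    exact h
  · simp only [if_true]
    show - (σ.refl a).lam v = _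
    rw [h]; ring

theorem rf_vf {F : MF} (hF : CF F) (σ : Dir) (fl : Bool) {a : ℕ → ℤ} {Z : ℝ}
    (ha : ∀ N : ℕ, 1 ≤ N → |(a N : ℝ) / N| ≤ Z) :
    VF (fun N => (rf σ fl (a N)).act (smp F N)) :=
  VF.of_ev (vf_act hF σ ha) fun N hN => by rw [rf_act, Dir.act_smp σ (a N) F hN]

end Vale.Agent.P159.T1.H729
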