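import Vale.Agent.P159.T1.H729.Vfa

/-!
Gaussian bounds in every domain which contains a lattice quarter plane (straight or diagonal).
-/

set_option linter.all false
set_option autoImplicit false

open MeasureTheory Filter Topology
open scoped BigOperators

namespace Vale.Agent.P159.T1.H729

open Vale.Agent.P159 Vale.Agent.P159.UJ Vale.Agent.P159.H950 Vale.Agent.P159.R2.H130
open Vale.Agent.P159.T1.H931 (zI chiI qI zI_pos zI_eq eI eI_cont eI_refl eI_congr)
open Vale.Agent.P159.T1.H532 (GLB glb_PR)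
open Vale.Agent.P159.T1.H409 (zI_ratio_mono zI_pinned)

/-- the perpendicular family -/
def perp : Dir → Dir
  | Dir.V => Dir.H
  | Dir.H => Dir.V
  | Dir.D => Dir.A
  | Dir.A => Dir.D

theorem perp_lam (σ : Dir) (a : ℤ) (v : ℤ × ℤ) : σ.lamZ (((perp σ).refl a).s v) = σ.lamZ v := by
  cases σ
  · rfl
  · rfl
  · show a - v.2 - (a - v.1) = v.1 - v.2
    ring
  · show v.2 + a + (v.1 - a) = v.1 + v.2
    ring

/-- large blocks symmetric about two perpendicular lines -/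
theorem big2 (σ : Dir) (a a' : ℤ) (X Z : ℕ) (ha : |a| ≤ Z) (ha' : |a'| ≤ Z) :
    ∃ (p : ℤ × ℤ) (L : ℕ), SC (σ.refl a) (blk p L) ∧ SI (σ.refl a) (intR (blk p L)) ∧
      SC ((perp σ).refl a') (blk p L) ∧ SI ((perp σ).refl a') (intR (blk p L)) ∧
      bx X ⊆ blk p L ∧ blk p L ⊆ bx (8 * (X + Z)) := by
  rw [abs_le] at ha ha'
  cases σ
  · refine ⟨(a - (X + Z), a' - (X + Z)), 2 * (X + Z), fun c => ?_, fun v => ?_, fun c => ?_,
      fun v => ?_, fun c hc => ?_, fun c hc => ?_⟩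
    · show (2 * a - 1 - c.1, c.2) ∈ _ ↔ _
      rw [mem_blk, mem_blk]; push_cast; omega
    · show (2 * a - v.1, v.2) ∈ _ ↔ _
      rw [mem_intR_blk, mem_intR_blk]; push_cast; omega
    · show (c.1, 2 * a' - 1 - c.2) ∈ _ ↔ _
      rw [mem_blk, mem_blk]; push_cast; omega
    · show (v.1, 2 * a' - v.2) ∈ _ ↔ _
      rw [mem_intR_blk, mem_intR_blk]; push_cast; omega
    · rw [mem_bx] at hc; rw [mem_blk]; push_cast; omega
    · rw [mem_blk] at hc; rw [mem_bx]; push_cast at hc ⊢; omega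
  · refine ⟨(a' - (X + Z), a - (X + Z)), 2 * (X + Z), fun c => ?_, fun v => ?_, fun c => ?_,
      fun v => ?_, fun c hc => ?_, fun c hc => ?_⟩
    · show (c.1, 2 * a - 1 - c.2) ∈ _ ↔ _
      rw [mem_blk, mem_blk]; push_cast; omega
    · show (v.1, 2 * a - v.2) ∈ _ ↔ _
      rw [mem_intR_blk, mem_intR_blk]; push_cast; omega
    · show (2 * a' - 1 - c.1, c.2) ∈ _ ↔ _
      rw [mem_blk, mem_blk]; push_cast; omega
    · show (2 * a' - v.1, v.2) ∈ _ ↔ _
      rw [mem_intR_blk, mem_intR_blk]; push_cast; omega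
    · rw [mem_bx] at hc; rw [mem_blk]; push_cast; omega
    · rw [mem_blk] at hc; rw [mem_bx]; push_cast at hc ⊢; omega
  · have hL : ((a + a' + 2 * (X + 2 * Z) : ℤ).toNat : ℤ) = a + a' + 2 * (X + 2 * Z) :=
      Int.toNat_of_nonneg (by omega)
    refine ⟨(-(X + 2 * Z), -(X + 2 * Z) - a), (a + a' + 2 * (X + 2 * Z) : ℤ).toNat, fun c => ?_,
      fun v => ?_, fun c => ?_, fun v => ?_, fun c hc => ?_, fun c hc => ?_⟩
    · show (c.2 + a, c.1 - a) ∈ _ ↔ _
      rw [mem_blk, mem_blk, hL]; push_cast; omega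
    · show (v.2 + a, v.1 - a) ∈ _ ↔ _
      rw [mem_intR_blk, mem_intR_blk, hL]; push_cast; omega
    · show (a' - 1 - c.2, a' - 1 - c.1) ∈ _ ↔ _
      rw [mem_blk, mem_blk, hL]; push_cast; omega
    · show (a' - v.2, a' - v.1) ∈ _ ↔ _
      rw [mem_intR_blk, mem_intR_blk, hL]; push_cast; omega
    · rw [mem_bx] at hc; rw [mem_blk, hL]; push_cast; omega
    · rw [mem_blk, hL] at hc; rw [mem_bx]; push_cast at hc ⊢; omega
  · have hL : ((a + a' + 2 * (X + 2 * Z) : ℤ).toNat : ℤ) = a + a' + 2 * (X + 2 * Z) :=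
      Int.toNat_of_nonneg (by omega)
    refine ⟨(-(X + 2 * Z), -(X + 2 * Z) - a'), (a + a' + 2 * (X + 2 * Z) : ℤ).toNat, fun c => ?_,
      fun v => ?_, fun c => ?_, fun v => ?_, fun c hc => ?_, fun c hc => ?_⟩
    · show (a - 1 - c.2, a - 1 - c.1) ∈ _ ↔ _
      rw [mem_blk, mem_blk, hL]; push_cast; omega
    · show (a - v.2, a - v.1) ∈ _ ↔ _
      rw [mem_intR_blk, mem_intR_blk, hL]; push_cast; omega
    · show (c.2 + a', c.1 - a') ∈ _ ↔ _
      rw [mem_blk, mem_blk, hL]; push_cast; omega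
    · show (v.2 + a', v.1 - a') ∈ _ ↔ _
      rw [mem_intR_blk, mem_intR_blk, hL]; push_cast; omega
    · rw [mem_bx] at hc; rw [mem_blk, hL]; push_cast; omega
    · rw [mem_blk, hL] at hc; rw [mem_bx]; push_cast at hc ⊢; omega

theorem SC.ofRefl {σ : Dir} {a : ℤ} {E : Finset (ℤ × ℤ)} (h : SC (σ.refl a) E) (fl : Bool) :
    SC (rf σ fl a) E := by
  intro c
  rw [rf_cm]
  exact h c

theorem SI.ofRefl {σ : Dir} {a : ℤ} {I : Set (ℤ × ℤ)} (h : SI (σ.refl a) I) (fl : Bool) :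
    SI (rf σ fl a) I := by
  intro v
  rw [rf_s]
  exact h v

theorem perp_rf (σ : Dir) (fl fl' : Bool) (a a' : ℤ) (v : ℤ × ℤ) :
    (rf σ fl a).lam ((rf (perp σ) fl' a').s v) = (rf σ fl a).lam v := by
  rw [rf_lam, rf_lam, rf_s, perp_lam]

/-- cutting along perpendicular lines preserves the symmetry -/
theorem SC.cut_perp {σ : Dir} {fl fl' : Bool} {a a' : ℤ} {E : Finset (ℤ × ℤ)}
    (h : SC (rf (perp σ) fl' a') E) (w : ℕ) : SC (rf (perp σ) fl' a') (cut (rf σ fl a) w E) := by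
  intro c
  rw [mem_cut, mem_cut, h c, AV_cm]
  simp only [perp_rf]

/-- removing cells with pinned vertices -/
theorem glb_pinned {b Y : ℝ} {R E : ℕ → Finset (ℤ × ℤ)} {I : ℕ → Set (ℤ × ℤ)} {f : SF}
    (hd : ∀ᶠ N in atTop, Disjoint (R N) (E N))
    (hE : ∀ᶠ N in atTop, ∀ c ∈ E N, ∀ t, hu c t ∉ I N ∧ hv c t ∉ I N)
    (hf : ∀ᶠ N in atTop, ∀ c ∈ E N, ∀ d, f N c d = 0)
    (h : GLB b Y (fun N => R N ∪ E N) I f) : GLB b Y R I f := by
  obtain ⟨C, hC⟩ := h
  refine ⟨C, fun t => ?_⟩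
  filter_upwards [hC t, hd, hE, hf] with N h1 h2 h3 h4
  rw [zI_pinned b h2 h3, zI_pinned b h2 h3] at h1
  have e1 : ∑ c ∈ E N, ∑ t' : HT, b / 2 * Real.cos (((t / N) • f N) c t'.1) =
      ∑ c ∈ E N, ∑ t' : HT, b / 2 * Real.cos ((0 : Fld) c t'.1) := by
    refine Finset.sum_congr rfl fun c hc => Finset.sum_congr rfl fun t' _ => ?_
    rw [Pi.smul_apply, Pi.smul_apply, h4 c hc, smul_zero]
    rfl
  have e2 : nR (R N ∪ E N) (f N) = nR (R N) (f N) := by
    symm
    refine nR_sub Finset.subset_union_left fun c hc hc' d => ?_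
    rcases Finset.mem_union.1 hc with h5 | h5
    · exact absurd h5 hc'
    · exact h4 c h5 d
  rw [e1, e2] at h1
  obtain ⟨q, hq⟩ : ∃ q, q = Real.exp (∑ c ∈ E N, ∑ t' : HT, b / 2 *
    Real.cos ((0 : Fld) c t'.1)) := ⟨_, rfl⟩
  rw [← hq] at h1
  have hq0 : 0 < q := by rw [hq]; exact Real.exp_pos _
  refine le_of_mul_le_mul_left (h1.trans (le_of_eq ?_)) hq0
  ring

/-- the vertices touched by a region -/
def St (R : Finset (ℤ × ℤ)) : Set (ℤ × ℤ) := {v | ∃ c ∈ R, ∃ t : HT, v = hu c t ∨ v = hv c t}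

theorem AV_left {r : Refl} {c : ℤ × ℤ} (h : ∀ t, r.left c t) : AV (fun v => r.lam v ≤ 0) c :=
  fun t => r.left1 c t (h t)

theorem intR_mono {R R' : Finset (ℤ × ℤ)} (h : R ⊆ R') : intR R ⊆ intR R' :=
  fun _ hv => ⟨h hv.1, h hv.2.1, h hv.2.2.1, h hv.2.2.2⟩

theorem St_bx {m : ℕ} {R : Finset (ℤ × ℤ)} (h : R ⊆ bx m) : St R ⊆ intR (bx (m + 1)) := by
  rintro v ⟨c, hc, t, ht⟩
  have h1 := mem_bx.1 (h hc)
  have h2 : AV (fun v => v ∈ intR (bx (m + 1))) c := by
    rw [AV_iff]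
    simp only [intR, Set.mem_setOf_eq, mem_bx, Prod.fst_sub, Prod.snd_sub]
    push_cast
    omega
  rcases ht with rfl | rfl
  · exact (h2 t).1
  · exact (h2 t).2

/-- **Gaussian bound in every domain which contains a lattice quarter plane** -/
theorem glb_wedge {b : ℝ} (hb : 0 < b) (hrho : RhoCut b) {F : MF} (hF : DF F) (σ : Dir)
    (fl fl' : Bool) {a a' : ℕ → ℤ} {w : ℕ → ℕ} {K : ℕ}
    (ha : ∀ N, |a N| ≤ ((K * N : ℕ) : ℤ)) (ha' : ∀ N, |a' N| ≤ ((K * N : ℕ) : ℤ))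
    {δ : ℝ} (hδ : 0 < δ) (hw : ∀ᶠ N : ℕ in atTop, δ * N ≤ w N)
    {R : ℕ → Finset (ℤ × ℤ)} {I : ℕ → Set (ℤ × ℤ)} (hR : ∀ᶠ N in atTop, R N ⊆ bx (K * N))
    (hI : ∀ᶠ N in atTop, ∀ c, AV (fun v => (rf σ fl (a N)).lam v ≤ w N) c →
      AV (fun v => (rf (perp σ) fl' (a' N)).lam v ≤ w N) c → c ∉ R N →
      AV (fun v => v ∈ St (R N) → v ∉ I N) c)
    (hf : ∀ᶠ N in atTop, ∀ c d, smp F N c d ≠ 0 → c ∈ R N ∧
      (∀ t, (rf σ fl (a N)).left c t) ∧ ∀ t, (rf (perp σ) fl' (a' N)).left c t) :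
    GLB b (helicity b) R I (smp F) := by
  classical
  have hb0 := hb.le
  have hm := mod_helicity hb
  have hY : 0 ≤ helicity b := hm.Y0
  -- the blocks
  have hblk : ∀ N : ℕ, ∃ (p : ℤ × ℤ) (L : ℕ), SC (σ.refl (a N)) (blk p L) ∧
      SI (σ.refl (a N)) (intR (blk p L)) ∧ SC ((perp σ).refl (a' N)) (blk p L) ∧
      SI ((perp σ).refl (a' N)) (intR (blk p L)) ∧ bx (K * N + 1) ⊆ blk p L ∧
      blk p L ⊆ bx (8 * (K * N + 1 + K * N)) := fun N =>
    big2 σ (a N) (a' N) (K * N + 1) (K * N) (ha N) (ha' N)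
  choose p L s1 i1 s2 i2 hbx hbx' using hblk
  set B : ℕ → Finset (ℤ × ℤ) := fun N => blk (p N) (L N) with hB
  set J : ℕ → Set (ℤ × ℤ) := fun N => intR (blk (p N) (L N)) with hJ
  set r : ℕ → Refl := fun N => rf σ fl (a N) with hr
  set r' : ℕ → Refl := fun N => rf (perp σ) fl' (a' N) with hr'
  obtain ⟨K1, hK1⟩ : ∃ K1 : ℕ, K1 = 16 * K + 8 := ⟨_, rfl⟩
  have hBK : ∀ᶠ N : ℕ in atTop, B N ⊆ bx (K1 * N) := by
    filter_upwards [eventually_ge_atTop 1] with N hN
    refine (hbx' N).trans (bx_mono ?_)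
    rw [hK1]
    nlinarith
  have hcf := hF.cont
  have hvf := vf_of_cont hcf
  have ha1 : ∀ N : ℕ, 1 ≤ N → |(a N : ℝ) / N| ≤ K := by
    intro N hN
    have hN0 : (0 : ℝ) < N := by exact_mod_cast hN
    rw [abs_div, abs_of_pos hN0, div_le_iff₀ hN0]
    exact_mod_cast ha N
  have ha1' : ∀ N : ℕ, 1 ≤ N → |(a' N : ℝ) / N| ≤ K := by
    intro N hN
    have hN0 : (0 : ℝ) < N := by exact_mod_cast hN
    rw [abs_div, abs_of_pos hN0, div_le_iff₀ hN0]
    exact_mod_cast ha' N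
  have hLF : ∀ᶠ N in atTop, LF (r N) (smp F N) := by
    filter_upwards [hf] with N h1 c hc d
    by_contra h2
    obtain ⟨t, ht⟩ := hc
    exact ht ((h1 c d h2).2.1 t)
  have hLF' : ∀ᶠ N in atTop, LF (r' N) (smp F N) := by
    filter_upwards [hf] with N h1 c hc d
    by_contra h2
    obtain ⟨t, ht⟩ := hc
    exact ht ((h1 c d h2).2.2 t)
  -- the wired block
  have hRB : ∀ᶠ N in atTop, R N ⊆ B N := by
    filter_upwards [hR] with N h1
    exact h1.trans ((bx_mono (Nat.le_succ _)).trans (hbx N))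
  have g0 : GLB b (helicity b) B J (smp F) := by
    have h1 := glb_PR hb hF (sqK K1)
    have h2 : GLB b (helicity b) (fun N => bx (K1 * N)) J (smp F) := by
      refine glb_mono hb0 (R' := fun N => PR (sqK K1) N) (I' := fun N => intR (PR (sqK K1) N))
        ?_ ?_ h1
      · filter_upwards [hBK, eventually_ge_atTop 1] with N h3 hN
        have e1 : PR (sqK K1) N = bx (K1 * N) := by
          rw [PR_sqK hN]
          ext c
          rw [mem_blk, mem_bx]
          push_cast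
          constructor
          · rintro ⟨q1, q2, q3, q4⟩
            refine ⟨q1, ?_, q3, ?_⟩ <;> linarith
          · rintro ⟨q1, q2, q3, q4⟩
            refine ⟨q1, ?_, q3, ?_⟩ <;> linarith
        show Les (PR (sqK K1) N) (intR (PR (sqK K1) N)) (bx (K1 * N)) (J N)
        rw [e1]
        refine ⟨subset_rfl, fun c _ t => ?_⟩
        have h4 : J N ⊆ intR (bx (K1 * N)) := intR_mono h3
        exact ⟨fun h5 => h4 h5, fun h5 => h4 h5⟩
      · filter_upwards [eventually_ge_atTop 1] with N hN c hc hc'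
        exfalso
        refine hc' ?_
        show c ∈ PR (sqK K1) N
        rw [PR_sqK hN, mem_blk]
        have h4 := mem_bx.1 hc
        push_cast at h4 ⊢
        obtain ⟨q1, q2, q3, q4⟩ := h4
        refine ⟨q1, ?_, q3, ?_⟩ <;> linarith
    refine glb_pinned (E := fun N => bx (K1 * N) \ B N) ?_ ?_ ?_ ?_
    · exact Eventually.of_forall fun N => Finset.disjoint_sdiff
    · filter_upwards with N c hc t
      have h3 : c ∉ B N := (Finset.mem_sdiff.1 hc).2
      have h4 : AV (fun v => v ∉ J N) c := by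
        rw [AV_iff]
        simp only [hJ, intR, Set.mem_setOf_eq, Prod.mk_sub_mk]
        simp only [sub_zero, add_sub_cancel_right]
        tauto
      exact h4 t
    · filter_upwards [hf, hRB] with N h3 h4 c hc d
      by_contra h5
      exact (Finset.mem_sdiff.1 hc).2 (h4 (h3 c d h5).1)
    · obtain ⟨C, hC⟩ := h2
      refine ⟨C, fun t => ?_⟩
      filter_upwards [hC t, hBK] with N h3 h4
      rw [Finset.union_sdiff_of_subset h4]
      exact h3
  -- lower bounds in the block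
  have l1 : LBZ b (helicity b) B J (fun N => smp F N - (r N).act (smp F N)) :=
    lbz_blk hm (hvf.sub (rf_vf hcf σ fl ha1)) hBK
  have l2 : LBZ b (helicity b) B J (fun N => smp F N - (r' N).act (smp F N)) :=
    lbz_blk hm (hvf.sub (rf_vf hcf (perp σ) fl' ha1')) hBK
  -- sizes
  have hw4 : ∀ᶠ N in atTop, 4 ≤ w N := by
    have h1 : Tendsto (fun N : ℕ => δ * (N : ℝ)) atTop atTop :=
      tendsto_natCast_atTop_atTop.const_mul_atTop hδ
    filter_upwards [hw, h1.eventually (eventually_ge_atTop 4)] with N h2 h3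
    exact_mod_cast h3.trans h2
  have hsz : ∀ E : ℕ → Finset (ℤ × ℤ), (∀ᶠ N in atTop, E N ⊆ B N) →
      ∀ᶠ N in atTop, ((E N).card : ℝ) ≤ (4 * (2 * K1 / δ) ^ 2) * ((w N : ℝ) - 2) ^ 2 := by
    intro E hE
    filter_upwards [hE, hBK, hw, hw4] with N h1 h2 h3 h4
    have h5 : ((E N).card : ℝ) ≤ ((bx (K1 * N)).card : ℝ) := by
      exact_mod_cast Finset.card_le_card (h1.trans h2)
    rw [card_bx] at h5
    push_cast at h5
    have h6 : (4 : ℝ) ≤ w N := by exact_mod_cast h4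
    have h7 : (w N : ℝ) ≤ 2 * ((w N : ℝ) - 2) := by linarith
    have h8 : δ * N ≤ 2 * ((w N : ℝ) - 2) := h3.trans h7
    have h9 : (N : ℝ) ≤ 2 * ((w N : ℝ) - 2) / δ := by
      rw [le_div_iff₀ hδ]; linarith
    have h10 : (2 * ((K1 : ℝ) * N)) ^ 2 ≤ (2 * ((K1 : ℝ) * (2 * ((w N : ℝ) - 2) / δ))) ^ 2 := by
      gcongr
    refine h5.trans (h10.trans (le_of_eq ?_))
    field_simp
    ring
  -- first cut
  have g1 : GLB b (helicity b) (fun N => cut (r N) (w N) (B N)) J (smp F) :=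
    glb_cut' (cs_cut b) hrho hb0 hY (fun N => good_rf σ fl (a N)) hw4
      (Eventually.of_forall fun N => (s1 N).ofRefl fl) (Eventually.of_forall fun N => (i1 N).ofRefl fl)
      (hsz B (Eventually.of_forall fun N => subset_rfl)) hLF l1 g0
  have l3 : LBZ b (helicity b) (fun N => cut (r N) (w N) (B N)) J
      (fun N => smp F N - (r' N).act (smp F N)) := by
    refine lbz_mono hb0 (R := B) (I := J) ?_ ?_ l2
    · exact Eventually.of_forall fun N => ⟨cut_sub _ _ _, fun c _ t => ⟨id, id⟩⟩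
    · filter_upwards [hf] with N h1 c hc hc' d
      have key : ∀ c0 d0, smp F N c0 d0 ≠ 0 → AV (fun v => (r N).lam v ≤ w N) c0 := by
        intro c0 d0 h2
        exact (AV_left (h1 c0 d0 h2).2.1).mono fun v hv => le_trans hv (Int.natCast_nonneg _)
      have e1 : smp F N c d = 0 := by
        by_contra h2
        exact hc' (mem_cut.2 ⟨hc, key c d h2⟩)
      have e2 : smp F N ((r' N).cm c) ((r' N).dm d) = 0 := by
        by_contra h2
        have h3 := key _ _ h2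
        rw [AV_cm] at h3
        refine hc' (mem_cut.2 ⟨hc, h3.mono fun v hv => ?_⟩)
        simp only [hr, hr', perp_rf] at hv
        exact hv
      show smp F N c d - (r' N).sg d * smp F N ((r' N).cm c) ((r' N).dm d) = 0
      rw [e1, e2]; ring
  -- second cut
  have g2 : GLB b (helicity b) (fun N => cut (r' N) (w N) (cut (r N) (w N) (B N))) J (smp F) :=
    glb_cut' (cs_cut b) hrho hb0 hY (fun N => good_rf (perp σ) fl' (a' N)) hw4
      (Eventually.of_forall fun N => SC.cut_perp ((s2 N).ofRefl fl') _)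
      (Eventually.of_forall fun N => (i2 N).ofRefl fl')
      (hsz _ (Eventually.of_forall fun N => cut_sub _ _ _)) hLF' l3 g1
  -- the real domain
  set W : ℕ → Finset (ℤ × ℤ) := fun N => cut (r' N) (w N) (cut (r N) (w N) (B N)) with hW
  have memW : ∀ N c, c ∈ W N ↔ (c ∈ B N ∧ AV (fun v => (r N).lam v ≤ w N) c) ∧
      AV (fun v => (r' N).lam v ≤ w N) c := by
    intro N c
    simp only [hW]
    rw [mem_cut, mem_cut]
  have g3 : GLB b (helicity b) (fun N => R N ∪ (W N \ R N)) (fun N => I N ∩ St (R N)) (smp F) := by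
    refine glb_mono hb0 (R' := W) (I' := J) ?_ ?_ g2
    · filter_upwards [hR] with N h1
      refine ⟨fun c hc => ?_, fun c _ t => ?_⟩
      · by_cases h2 : c ∈ R N
        · exact Finset.mem_union_left _ h2
        · exact Finset.mem_union_right _ (Finset.mem_sdiff.2 ⟨hc, h2⟩)
      · have h2 : St (R N) ⊆ J N := (St_bx h1).trans (intR_mono (hbx N))
        exact ⟨fun h3 => h2 h3.2, fun h3 => h2 h3.2⟩
    · filter_upwards [hf, hRB] with N h1 h2 c hc hc' d
      by_contra h3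
      have h4 := h1 c d h3
      refine hc' ((memW N c).2 ⟨⟨h2 h4.1, ?_⟩, ?_⟩)
      · exact (AV_left h4.2.1).mono fun v hv => le_trans hv (Int.natCast_nonneg _)
      · exact (AV_left h4.2.2).mono fun v hv => le_trans hv (Int.natCast_nonneg _)
  have g4 : GLB b (helicity b) R (fun N => I N ∩ St (R N)) (smp F) := by
    refine glb_pinned (E := fun N => W N \ R N) (Eventually.of_forall fun N => Finset.disjoint_sdiff)
      ?_ ?_ g3
    · filter_upwards [hI] with N h1 c hc t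
      obtain ⟨h2, h3⟩ := Finset.mem_sdiff.1 hc
      have h4 := (memW N c).1 h2
      have h5 := h1 c h4.1.2 h4.2 h3 t
      exact ⟨fun h6 => h5.1 h6.2 h6.1, fun h6 => h5.2 h6.2 h6.1⟩
    · filter_upwards [hf] with N h1 c hc d
      by_contra h2
      exact (Finset.mem_sdiff.1 hc).2 (h1 c d h2).1
  obtain ⟨C, hC⟩ := g4
  refine ⟨C, fun t => ?_⟩
  filter_upwards [hC t] with N h1
  have e : ∀ y : Fld, zI b (R N) (I N ∩ St (R N)) y = zI b (R N) (I N) y := by
    intro y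
    refine H931.zI_congr fun c hc => ⟨fun _ => rfl, fun t => ⟨?_, ?_⟩⟩
    · exact ⟨fun h2 => h2.1, fun h2 => ⟨h2, c, hc, t, Or.inl rfl⟩⟩
    · exact ⟨fun h2 => h2.1, fun h2 => ⟨h2, c, hc, t, Or.inr rfl⟩⟩
  rw [e, e] at h1
  exact h1

end Vale.Agent.P159.T1.H729
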